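import Mathlib

/-!
# Biased discrete cube: characters, Fourier inversion, noise operators with frozen coordinates

All analysis on `E → Bool` under the product measure of bias `p`, with explicit finite sums.
-/

set_option autoImplicit false
set_option linter.unusedSectionVars false
set_option linter.unusedVariables false
set_option linter.unusedSimpArgs false
set_option linter.deprecated false
set_option linter.unnecessarySimpa false

open Finset

namespace Crest.Agent.BC

/-- A bias strictly between `0` and `1`. -/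
structure Bias where
  p : ℝ
  p0 : 0 < p
  p1 : p < 1

namespace Bias

variable (b : Bias)

/-- standard deviation of one coin -/
noncomputable def s : ℝ := Real.sqrt (b.p * (1 - b.p))

/-- weight of one coin -/
noncomputable def m (x : Bool) : ℝ := if x then b.p else 1 - b.p

/-- normalised character of one coin -/
noncomputable def chi (x : Bool) : ℝ := if x then (1 - b.p) / b.s else - b.p / b.s

lemma pq_pos : 0 < b.p * (1 - b.p) := mul_pos b.p0 (by linarith [b.p1])

lemma s_pos : 0 < b.s := Real.sqrt_pos.mpr b.pq_pos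

lemma s_sq : b.s ^ 2 = b.p * (1 - b.p) := Real.sq_sqrt b.pq_pos.le

lemma s_le : b.s ≤ 1 / 2 := by
  have h1 := b.s_sq
  have h2 := b.s_pos
  nlinarith [sq_nonneg (b.p - 1 / 2)]

lemma s_sq_le : b.s ^ 2 ≤ 1 / 4 := by
  rw [b.s_sq]; nlinarith [sq_nonneg (b.p - 1 / 2)]

@[simp] lemma m_true : b.m true = b.p := rfl
@[simp] lemma m_false : b.m false = 1 - b.p := by simp [m]
@[simp] lemma chi_true : b.chi true = (1 - b.p) / b.s := rfl
@[simp] lemma chi_false : b.chi false = - b.p / b.s := by simp [chi]

lemma m_pos (x : Bool) : 0 < b.m x := by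
  cases x
  · simpa using b.p1
  · simpa using b.p0

lemma m_add : b.m true + b.m false = 1 := by simp

lemma chi_mean : b.m true * b.chi true + b.m false * b.chi false = 0 := by
  have := b.s_pos.ne'
  simp only [m_true, m_false, chi_true, chi_false]
  field_simp
  ring

lemma chi_sq_mean : b.m true * b.chi true ^ 2 + b.m false * b.chi false ^ 2 = 1 := by
  have h := b.s_pos.ne'
  have h2 := b.s_sq
  simp only [m_true, m_false, chi_true, chi_false]
  field_simp
  rw [h2]
  ring

lemma m_chi_true : b.m true * b.chi true = b.s := by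
  have h := b.s_pos.ne'
  have h2 := b.s_sq
  simp only [m_true, chi_true]
  field_simp
  rw [h2]

lemma m_chi_false : b.m false * b.chi false = - b.s := by
  have h := b.s_pos.ne'
  have h2 := b.s_sq
  simp only [m_false, chi_false]
  field_simp
  rw [h2]

lemma chi_mul_true_false : b.chi true * b.chi false = -1 := by
  have h := b.s_pos.ne'
  have h2 := b.s_sq
  simp only [chi_true, chi_false]
  field_simp
  rw [h2]

lemma m_chi_sq_true : b.m true * (1 + b.chi true * b.chi true) = 1 := by
  have h := b.s_pos.ne'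
  have h2 := b.s_sq
  simp only [m_true, chi_true]
  field_simp
  rw [h2]
  ring

lemma m_chi_sq_false : b.m false * (1 + b.chi false * b.chi false) = 1 := by
  have h := b.s_pos.ne'
  have h2 := b.s_sq
  have hq : (1 - b.p) ≠ 0 := by linarith [b.p1]
  simp only [m_false, chi_false]
  field_simp
  rw [h2]
  field_simp
  ring

lemma s_chi_sub : b.s * (b.chi true - b.chi false) = 1 := by
  have h := b.s_pos.ne'
  simp only [chi_true, chi_false]
  field_simp
  ring

lemma chi_mul_ge (c c' : Bool) : -1 ≤ b.chi c * b.chi c' := by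
  have h1 := b.chi_mul_true_false
  cases c <;> cases c'
  · nlinarith [sq_nonneg (b.chi false)]
  · rw [mul_comm]; exact h1.ge
  · exact h1.ge
  · nlinarith [sq_nonneg (b.chi true)]

section cube

variable {E : Type*} [Fintype E] [DecidableEq E]

/-- product formula for sums over the cube -/
lemma sum_prod_bool (F : E → Bool → ℝ) :
    ∑ w : E → Bool, ∏ e, F e (w e) = ∏ e, (F e true + F e false) := by
  have := (Finset.prod_univ_sum (fun _ : E => (Finset.univ : Finset Bool)) F).symm
  simp only [Fintype.piFinset_univ] at this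
  rw [this]
  refine Finset.prod_congr rfl (fun e _ => ?_)
  simp

/-- weight of a point of the cube -/
noncomputable def wt (x : E → Bool) : ℝ := ∏ e, b.m (x e)

lemma wt_pos (x : E → Bool) : 0 < b.wt x := Finset.prod_pos (fun e _ => b.m_pos _)

/-- expectation -/
noncomputable def ex (g : (E → Bool) → ℝ) : ℝ := ∑ x, b.wt x * g x

/-- character -/
noncomputable def cha (S : Finset E) (x : E → Bool) : ℝ := ∏ e ∈ S, b.chi (x e)

/-- Fourier coefficient -/
noncomputable def hat (g : (E → Bool) → ℝ) (S : Finset E) : ℝ :=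
  b.ex (fun x => g x * b.cha S x)

lemma sum_wt : ∑ x : E → Bool, b.wt x = 1 := by
  unfold wt
  rw [sum_prod_bool (fun _ c => b.m c)]
  simp [m_add]

lemma ex_const (c : ℝ) : b.ex (fun _ : E → Bool => c) = c := by
  unfold ex
  rw [← Finset.sum_mul, sum_wt, one_mul]

lemma ex_add (g h : (E → Bool) → ℝ) : b.ex (fun x => g x + h x) = b.ex g + b.ex h := by
  unfold ex
  rw [← Finset.sum_add_distrib]
  exact Finset.sum_congr rfl (fun x _ => by ring)

lemma ex_sub (g h : (E → Bool) → ℝ) : b.ex (fun x => g x - h x) = b.ex g - b.ex h := by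
  unfold ex
  rw [← Finset.sum_sub_distrib]
  exact Finset.sum_congr rfl (fun x _ => by ring)

lemma ex_mul_const (c : ℝ) (g : (E → Bool) → ℝ) : b.ex (fun x => c * g x) = c * b.ex g := by
  unfold ex
  rw [Finset.mul_sum]
  exact Finset.sum_congr rfl (fun x _ => by ring)

lemma ex_sum {ι : Type*} (t : Finset ι) (g : ι → (E → Bool) → ℝ) :
    b.ex (fun x => ∑ i ∈ t, g i x) = ∑ i ∈ t, b.ex (g i) := by
  unfold ex
  simp_rw [Finset.mul_sum]
  exact Finset.sum_comm

lemma ex_mono {g h : (E → Bool) → ℝ} (hgh : ∀ x, g x ≤ h x) : b.ex g ≤ b.ex h :=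
  Finset.sum_le_sum (fun x _ => mul_le_mul_of_nonneg_left (hgh x) (b.wt_pos x).le)

lemma ex_nonneg {g : (E → Bool) → ℝ} (hg : ∀ x, 0 ≤ g x) : 0 ≤ b.ex g :=
  Finset.sum_nonneg (fun x _ => mul_nonneg (b.wt_pos x).le (hg x))

lemma ex_congr {g h : (E → Bool) → ℝ} (hgh : ∀ x, g x = h x) : b.ex g = b.ex h :=
  Finset.sum_congr rfl (fun x _ => by rw [hgh x])

/-- orthonormality of characters -/
lemma ex_cha_mul (S T : Finset E) :
    b.ex (fun x => b.cha S x * b.cha T x) = if S = T then 1 else 0 := by
  have hprod : ∀ x : E → Bool, b.wt x * (b.cha S x * b.cha T x) =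
      ∏ e, (b.m (x e) * (if e ∈ S then b.chi (x e) else 1) *
        (if e ∈ T then b.chi (x e) else 1)) := by
    intro x
    unfold wt cha
    rw [Finset.prod_mul_distrib, Finset.prod_mul_distrib, Finset.prod_ite_mem, Finset.prod_ite_mem]
    simp only [Finset.univ_inter]
    ring
  unfold ex
  simp_rw [hprod]
  rw [sum_prod_bool (fun e c => b.m c * (if e ∈ S then b.chi c else 1) *
        (if e ∈ T then b.chi c else 1))]
  split_ifs with hST
  · subst hST
    refine Finset.prod_eq_one (fun e _ => ?_)
    by_cases he : e ∈ S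
    · simp only [he, if_true]
      have := b.chi_sq_mean
      nlinarith
    · simp only [he, if_false, mul_one]
      exact b.m_add
  · have : ∃ e, (e ∈ S ∧ e ∉ T) ∨ (e ∉ S ∧ e ∈ T) := by
      by_contra hcon
      push Not at hcon
      apply hST
      ext e
      constructor
      · intro he
        exact (hcon e).1 he
      · intro he
        by_contra he'
        exact (hcon e).2 he' he
    obtain ⟨e, he⟩ := this
    refine Finset.prod_eq_zero (Finset.mem_univ e) ?_
    rcases he with ⟨h1, h2⟩ | ⟨h1, h2⟩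
    · simp only [h1, h2, if_true, if_false, mul_one]
      exact b.chi_mean
    · simp only [h1, h2, if_true, if_false, mul_one]
      exact b.chi_mean

lemma cha_empty (x : E → Bool) : b.cha ∅ x = 1 := by simp [cha]

lemma ex_eq_hat_empty (g : (E → Bool) → ℝ) : b.ex g = b.hat g ∅ := by
  unfold hat
  simp [cha_empty]

/-- kernel sum -/
lemma sum_cha_mul_cha (x y : E → Bool) :
    ∑ S : Finset E, b.cha S y * b.cha S x = ∏ e, (1 + b.chi (y e) * b.chi (x e)) := by
  rw [Finset.prod_one_add]
  simp only [Finset.powerset_univ]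
  refine Finset.sum_congr rfl (fun S _ => ?_)
  unfold cha
  rw [Finset.prod_mul_distrib]

lemma wt_mul_kernel (x y : E → Bool) :
    b.wt y * ∏ e, (1 + b.chi (y e) * b.chi (x e)) = if y = x then 1 else 0 := by
  unfold wt
  rw [← Finset.prod_mul_distrib]
  split_ifs with h
  · subst h
    refine Finset.prod_eq_one (fun e _ => ?_)
    cases y e
    · exact b.m_chi_sq_false
    · exact b.m_chi_sq_true
  · have : ∃ e, y e ≠ x e := by
      by_contra hcon
      push Not at hcon
      exact h (funext hcon)
    obtain ⟨e, he⟩ := this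
    refine Finset.prod_eq_zero (Finset.mem_univ e) ?_
    have h1 := b.chi_mul_true_false
    rcases hy : y e with _ | _ <;> rcases hx : x e with _ | _ <;> simp_all
    · rw [mul_comm, h1]; norm_num

/-- Fourier inversion -/
theorem fourier_inv (g : (E → Bool) → ℝ) (x : E → Bool) :
    g x = ∑ S : Finset E, b.hat g S * b.cha S x := by
  unfold hat ex
  simp_rw [Finset.sum_mul]
  rw [Finset.sum_comm]
  have : ∀ y : E → Bool, ∑ S : Finset E, b.wt y * (g y * b.cha S y) * b.cha S x =
      g y * (if y = x then 1 else 0) := by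
    intro y
    rw [← b.wt_mul_kernel x y, ← b.sum_cha_mul_cha x y, Finset.mul_sum, Finset.mul_sum]
    refine Finset.sum_congr rfl (fun S _ => ?_)
    ring
  simp_rw [this]
  simp

/-- functions are determined by their Fourier coefficients -/
theorem hat_inj {g h : (E → Bool) → ℝ} (hgh : ∀ S, b.hat g S = b.hat h S) : g = h := by
  funext x
  rw [b.fourier_inv g x, b.fourier_inv h x]
  exact Finset.sum_congr rfl (fun S _ => by rw [hgh S])

/-- Parseval (polarised) -/
theorem parseval (g h : (E → Bool) → ℝ) :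
    b.ex (fun x => g x * h x) = ∑ S : Finset E, b.hat g S * b.hat h S := by
  have : ∀ x, g x * h x = ∑ S : Finset E, b.hat h S * (g x * b.cha S x) := by
    intro x
    conv_lhs => rw [b.fourier_inv h x, Finset.mul_sum]
    exact Finset.sum_congr rfl (fun S _ => by ring)
  rw [b.ex_congr this, b.ex_sum]
  refine Finset.sum_congr rfl (fun S _ => ?_)
  rw [b.ex_mul_const]
  unfold hat
  ring

theorem parseval_sq (g : (E → Bool) → ℝ) :
    b.ex (fun x => g x ^ 2) = ∑ S : Finset E, b.hat g S ^ 2 := by
  have := b.parseval g g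
  simp only [sq] at this ⊢
  exact this

lemma hat_add (g h : (E → Bool) → ℝ) (S : Finset E) :
    b.hat (fun x => g x + h x) S = b.hat g S + b.hat h S := by
  unfold hat
  rw [← b.ex_add]
  exact b.ex_congr (fun x => by ring)

lemma hat_sub (g h : (E → Bool) → ℝ) (S : Finset E) :
    b.hat (fun x => g x - h x) S = b.hat g S - b.hat h S := by
  unfold hat
  rw [← b.ex_sub]
  exact b.ex_congr (fun x => by ring)

lemma hat_mul_const (c : ℝ) (g : (E → Bool) → ℝ) (S : Finset E) :
    b.hat (fun x => c * g x) S = c * b.hat g S := by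
  unfold hat
  rw [← b.ex_mul_const]
  exact b.ex_congr (fun x => by ring)

/-- A combination of characters has the expected coefficients. -/
lemma hat_sum_cha (c : Finset E → ℝ) (S : Finset E) :
    b.hat (fun x => ∑ T : Finset E, c T * b.cha T x) S = c S := by
  unfold hat
  have : ∀ x, (∑ T : Finset E, c T * b.cha T x) * b.cha S x =
      ∑ T : Finset E, c T * (b.cha T x * b.cha S x) := by
    intro x
    rw [Finset.sum_mul]
    exact Finset.sum_congr rfl (fun T _ => by ring)
  rw [b.ex_congr this, b.ex_sum]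
  simp_rw [b.ex_mul_const, b.ex_cha_mul]
  simp

/-! ### The noise operator acting on the coordinates of `Y` -/

/-- noise kernel on `Y` -/
noncomputable def ker (Y : Finset E) (ρ : ℝ) (x w : E → Bool) : ℝ :=
  ∏ e ∈ Y, (1 + ρ * b.chi (x e) * b.chi (w e))

/-- noise operator on the coordinates in `Y`; the other coordinates of `x` stay frozen. -/
noncomputable def T (Y : Finset E) (ρ : ℝ) (g : (E → Bool) → ℝ) (x : E → Bool) : ℝ :=
  ∑ w, b.wt w * b.ker Y ρ x w * g (Y.piecewise w x)

/-- expectation over the coordinates in `Y`, the others frozen. -/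
noncomputable def Ex (Y : Finset E) (g : (E → Bool) → ℝ) (x : E → Bool) : ℝ :=
  ∑ w, b.wt w * g (Y.piecewise w x)

lemma T_zero (Y : Finset E) (g : (E → Bool) → ℝ) : b.T Y 0 g = b.Ex Y g := by
  funext x
  unfold T Ex ker
  simp

lemma ker_nonneg (Y : Finset E) {ρ : ℝ} (h0 : 0 ≤ ρ) (h1 : ρ ≤ 1) (x w : E → Bool) :
    0 ≤ b.ker Y ρ x w := by
  refine Finset.prod_nonneg (fun e _ => ?_)
  have := b.chi_mul_ge (x e) (w e)
  nlinarith

lemma T_cha (Y S : Finset E) (ρ : ℝ) (x : E → Bool) :
    b.T Y ρ (b.cha S) x = ρ ^ (S ∩ Y).card * b.cha S x := by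
  have hprod : ∀ w : E → Bool, b.wt w * b.ker Y ρ x w * b.cha S (Y.piecewise w x) =
      ∏ e, (b.m (w e) * (if e ∈ Y then (1 + ρ * b.chi (x e) * b.chi (w e)) else 1) *
        (if e ∈ S then (if e ∈ Y then b.chi (w e) else b.chi (x e)) else 1)) := by
    intro w
    unfold wt ker cha
    rw [Finset.prod_mul_distrib, Finset.prod_mul_distrib, Finset.prod_ite_mem, Finset.prod_ite_mem]
    simp only [Finset.univ_inter]
    congr 1
    refine Finset.prod_congr rfl (fun e _ => ?_)
    by_cases he : e ∈ Y <;> simp [Finset.piecewise, he]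
  unfold T
  simp_rw [hprod]
  rw [sum_prod_bool (fun e c => b.m c * (if e ∈ Y then (1 + ρ * b.chi (x e) * b.chi c) else 1) *
        (if e ∈ S then (if e ∈ Y then b.chi c else b.chi (x e)) else 1))]
  have hfac : ∀ e, (b.m true * (if e ∈ Y then (1 + ρ * b.chi (x e) * b.chi true) else 1) *
        (if e ∈ S then (if e ∈ Y then b.chi true else b.chi (x e)) else 1)) +
      (b.m false * (if e ∈ Y then (1 + ρ * b.chi (x e) * b.chi false) else 1) *
        (if e ∈ S then (if e ∈ Y then b.chi false else b.chi (x e)) else 1)) =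
      (if e ∈ S then (if e ∈ Y then ρ else 1) * b.chi (x e) else 1) := by
    intro e
    have h1 := b.chi_mean
    have h2 := b.chi_sq_mean
    have h3 := b.m_add
    by_cases hS : e ∈ S <;> by_cases hY : e ∈ Y <;> simp only [hS, hY, if_true, if_false, mul_one, one_mul]
    · linear_combination h1 + ρ * b.chi (x e) * h2
    · linear_combination b.chi (x e) * h3
    · linear_combination h3 + ρ * b.chi (x e) * h1
    · exact h3
  simp_rw [hfac]
  rw [Finset.prod_ite_mem, Finset.univ_inter, Finset.prod_mul_distrib, Finset.prod_ite_mem]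
  unfold cha
  congr 1
  rw [Finset.prod_const]

lemma T_sum_apply (Y : Finset E) (ρ : ℝ) (c : Finset E → ℝ) (φ : Finset E → (E → Bool) → ℝ)
    (x : E → Bool) :
    b.T Y ρ (fun z => ∑ S, c S * φ S z) x = ∑ S, c S * b.T Y ρ (φ S) x := by
  unfold T
  simp_rw [Finset.mul_sum]
  rw [Finset.sum_comm]
  refine Finset.sum_congr rfl (fun S _ => Finset.sum_congr rfl (fun w _ => ?_))
  ring

/-- Fourier formula for the noise operator -/
theorem T_fourier (Y : Finset E) (ρ : ℝ) (g : (E → Bool) → ℝ) (x : E → Bool) :
    b.T Y ρ g x = ∑ S : Finset E, (ρ ^ (S ∩ Y).card * b.hat g S) * b.cha S x := by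
  have : g = fun z => ∑ S, b.hat g S * b.cha S z := funext (b.fourier_inv g)
  conv_lhs => rw [this]
  rw [T_sum_apply]
  refine Finset.sum_congr rfl (fun S _ => ?_)
  rw [T_cha]
  ring

/-- Fourier coefficients of the noise operator -/
theorem hat_T (Y : Finset E) (ρ : ℝ) (g : (E → Bool) → ℝ) (S : Finset E) :
    b.hat (b.T Y ρ g) S = ρ ^ (S ∩ Y).card * b.hat g S := by
  have : b.T Y ρ g = fun x => ∑ S : Finset E, (ρ ^ (S ∩ Y).card * b.hat g S) * b.cha S x :=
    funext (b.T_fourier Y ρ g)
  rw [this, hat_sum_cha]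

theorem hat_Ex (Y : Finset E) (g : (E → Bool) → ℝ) (S : Finset E) :
    b.hat (b.Ex Y g) S = (if Disjoint S Y then b.hat g S else 0) := by
  rw [← T_zero, hat_T]
  by_cases h : Disjoint S Y
  · have : S ∩ Y = ∅ := Finset.disjoint_iff_inter_eq_empty.mp h
    simp [h, this]
  · have : (S ∩ Y).card ≠ 0 := by
      intro hc
      apply h
      rw [Finset.card_eq_zero] at hc
      exact Finset.disjoint_iff_inter_eq_empty.mpr hc
    simp [h, this]

lemma T_congr_fun {Y : Finset E} {ρ : ℝ} {g h : (E → Bool) → ℝ} (H : ∀ x, g x = h x) :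
    b.T Y ρ g = b.T Y ρ h := by
  rw [funext H]

lemma T_add (Y : Finset E) (ρ : ℝ) (g h : (E → Bool) → ℝ) (x : E → Bool) :
    b.T Y ρ (fun z => g z + h z) x = b.T Y ρ g x + b.T Y ρ h x := by
  unfold T
  rw [← Finset.sum_add_distrib]
  exact Finset.sum_congr rfl (fun w _ => by ring)

lemma T_sub (Y : Finset E) (ρ : ℝ) (g h : (E → Bool) → ℝ) (x : E → Bool) :
    b.T Y ρ (fun z => g z - h z) x = b.T Y ρ g x - b.T Y ρ h x := by
  unfold T
  rw [← Finset.sum_sub_distrib]
  exact Finset.sum_congr rfl (fun w _ => by ring)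

lemma T_mul_const (Y : Finset E) (ρ c : ℝ) (g : (E → Bool) → ℝ) (x : E → Bool) :
    b.T Y ρ (fun z => c * g z) x = c * b.T Y ρ g x := by
  unfold T
  rw [Finset.mul_sum]
  exact Finset.sum_congr rfl (fun w _ => by ring)

lemma Ex_add (Y : Finset E) (g h : (E → Bool) → ℝ) (x : E → Bool) :
    b.Ex Y (fun z => g z + h z) x = b.Ex Y g x + b.Ex Y h x := by
  unfold Ex
  rw [← Finset.sum_add_distrib]
  exact Finset.sum_congr rfl (fun w _ => by ring)

lemma Ex_sub (Y : Finset E) (g h : (E → Bool) → ℝ) (x : E → Bool) :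
    b.Ex Y (fun z => g z - h z) x = b.Ex Y g x - b.Ex Y h x := by
  unfold Ex
  rw [← Finset.sum_sub_distrib]
  exact Finset.sum_congr rfl (fun w _ => by ring)

lemma Ex_mul_const (Y : Finset E) (c : ℝ) (g : (E → Bool) → ℝ) (x : E → Bool) :
    b.Ex Y (fun z => c * g z) x = c * b.Ex Y g x := by
  unfold Ex
  rw [Finset.mul_sum]
  exact Finset.sum_congr rfl (fun w _ => by ring)

lemma Ex_const (Y : Finset E) (c : ℝ) (x : E → Bool) :
    b.Ex Y (fun _ => c) x = c := by
  unfold Ex
  rw [← Finset.sum_mul, sum_wt, one_mul]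

lemma Ex_mono (Y : Finset E) {g h : (E → Bool) → ℝ} (H : ∀ x, g x ≤ h x) (x : E → Bool) :
    b.Ex Y g x ≤ b.Ex Y h x :=
  Finset.sum_le_sum (fun w _ => mul_le_mul_of_nonneg_left (H _) (b.wt_pos w).le)

lemma Ex_nonneg (Y : Finset E) {g : (E → Bool) → ℝ} (H : ∀ x, 0 ≤ g x) (x : E → Bool) :
    0 ≤ b.Ex Y g x :=
  Finset.sum_nonneg (fun w _ => mul_nonneg (b.wt_pos w).le (H _))

lemma Ex_congr (Y : Finset E) {g h : (E → Bool) → ℝ} (H : ∀ x, g x = h x) (x : E → Bool) :
    b.Ex Y g x = b.Ex Y h x :=
  Finset.sum_congr rfl (fun w _ => by rw [H])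

/-- Cauchy–Schwarz for the partial expectation. -/
lemma Ex_cs (Y : Finset E) (g h : (E → Bool) → ℝ) (x : E → Bool) :
    (b.Ex Y (fun z => g z * h z) x) ^ 2 ≤
      b.Ex Y (fun z => g z ^ 2) x * b.Ex Y (fun z => h z ^ 2) x := by
  unfold Ex
  refine Finset.sum_sq_le_sum_mul_sum_of_sq_eq_mul _ ?_ ?_ ?_
  · exact fun w _ => mul_nonneg (b.wt_pos w).le (sq_nonneg _)
  · exact fun w _ => mul_nonneg (b.wt_pos w).le (sq_nonneg _)
  · intro w _
    ring

lemma ex_cs (g h : (E → Bool) → ℝ) :
    (b.ex (fun z => g z * h z)) ^ 2 ≤ b.ex (fun z => g z ^ 2) * b.ex (fun z => h z ^ 2) := by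
  unfold ex
  refine Finset.sum_sq_le_sum_mul_sum_of_sq_eq_mul _ ?_ ?_ ?_
  · exact fun w _ => mul_nonneg (b.wt_pos w).le (sq_nonneg _)
  · exact fun w _ => mul_nonneg (b.wt_pos w).le (sq_nonneg _)
  · intro w _
    ring

/-- `g` does not depend on the coordinates in `Y`. -/
def Fix (Y : Finset E) (g : (E → Bool) → ℝ) : Prop := ∀ x w, g (Y.piecewise w x) = g x

lemma piecewise_piecewise_same (Y : Finset E) (w w' x : E → Bool) :
    Y.piecewise w (Y.piecewise w' x) = Y.piecewise w x := by
  funext e
  by_cases he : e ∈ Y <;> simp [Finset.piecewise, he]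

lemma fix_Ex (Y : Finset E) (g : (E → Bool) → ℝ) : Fix Y (b.Ex Y g) := by
  intro x w
  unfold Ex
  refine Finset.sum_congr rfl (fun w' _ => ?_)
  rw [piecewise_piecewise_same]

lemma Ex_mul_left (Y : Finset E) {c : (E → Bool) → ℝ} (hc : Fix Y c) (g : (E → Bool) → ℝ)
    (x : E → Bool) : b.Ex Y (fun z => c z * g z) x = c x * b.Ex Y g x := by
  unfold Ex
  rw [Finset.mul_sum]
  refine Finset.sum_congr rfl (fun w _ => ?_)
  simp only []
  rw [hc x w]
  ring

lemma T_mul_left (Y : Finset E) (ρ : ℝ) {c : (E → Bool) → ℝ} (hc : Fix Y c)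
    (g : (E → Bool) → ℝ) (x : E → Bool) :
    b.T Y ρ (fun z => c z * g z) x = c x * b.T Y ρ g x := by
  unfold T
  rw [Finset.mul_sum]
  refine Finset.sum_congr rfl (fun w _ => ?_)
  simp only []
  rw [hc x w]
  ring

lemma Ex_of_fix (Y : Finset E) {c : (E → Bool) → ℝ} (hc : Fix Y c) (x : E → Bool) :
    b.Ex Y c x = c x := by
  unfold Ex
  simp_rw [hc x]
  rw [← Finset.sum_mul, sum_wt, one_mul]

lemma ex_Ex (Y : Finset E) (g : (E → Bool) → ℝ) : b.ex (b.Ex Y g) = b.ex g := by
  rw [ex_eq_hat_empty, ex_eq_hat_empty, hat_Ex]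
  simp

lemma ex_T (Y : Finset E) (ρ : ℝ) (g : (E → Bool) → ℝ) : b.ex (b.T Y ρ g) = b.ex g := by
  rw [ex_eq_hat_empty, ex_eq_hat_empty, hat_T]
  simp

/-- tower property -/
lemma Ex_Ex (Y Y' : Finset E) (g : (E → Bool) → ℝ) : b.Ex Y (b.Ex Y' g) = b.Ex (Y ∪ Y') g := by
  apply b.hat_inj
  intro S
  simp only [hat_Ex, Finset.disjoint_union_right]
  by_cases h : Disjoint S Y <;> by_cases h' : Disjoint S Y' <;> simp [h, h']

lemma Ex_idem (Y : Finset E) (g : (E → Bool) → ℝ) : b.Ex Y (b.Ex Y g) = b.Ex Y g := by
  rw [Ex_Ex, Finset.union_self]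

/-- composition of noise operators on disjoint sets -/
lemma T_T_disj {Y Y' : Finset E} (h : Disjoint Y Y') (ρ : ℝ) (g : (E → Bool) → ℝ) :
    b.T Y ρ (b.T Y' ρ g) = b.T (Y ∪ Y') ρ g := by
  apply b.hat_inj
  intro S
  simp only [hat_T]
  rw [← mul_assoc, ← pow_add]
  congr 2
  rw [Finset.inter_union_distrib_left, Finset.card_union_of_disjoint]
  exact Finset.disjoint_of_subset_left Finset.inter_subset_right
    (Finset.disjoint_of_subset_right Finset.inter_subset_right h)

/-- noise with same parameter squared -/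
lemma T_T (Y : Finset E) (ρ ρ' : ℝ) (g : (E → Bool) → ℝ) :
    b.T Y ρ (b.T Y ρ' g) = b.T Y (ρ * ρ') g := by
  apply b.hat_inj
  intro S
  simp only [hat_T]
  rw [mul_pow]
  ring

lemma T_empty (ρ : ℝ) (g : (E → Bool) → ℝ) : b.T ∅ ρ g = g := by
  funext x
  unfold T ker
  simp only [Finset.prod_empty, mul_one, Finset.piecewise_empty]
  rw [← Finset.sum_mul, sum_wt, one_mul]

lemma Ex_empty (g : (E → Bool) → ℝ) : b.Ex ∅ g = g := by
  rw [← T_zero, T_empty]

/-- partial expectation over a single coordinate. -/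
lemma sum_wt_coord (e : E) (φ : Bool → ℝ) :
    ∑ w : E → Bool, b.wt w * φ (w e) = b.p * φ true + (1 - b.p) * φ false := by
  have hprod : ∀ w : E → Bool, b.wt w * φ (w e) =
      ∏ e', (b.m (w e') * (if e' = e then φ (w e') else 1)) := by
    intro w
    unfold wt
    rw [Finset.prod_mul_distrib, Finset.prod_ite_eq' Finset.univ e]
    simp
  simp_rw [hprod]
  rw [sum_prod_bool (fun e' c => b.m c * (if e' = e then φ c else 1))]
  rw [Finset.prod_eq_single e]
  · simp
  · intro e' _ he'
    simp [he']
  · simp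

lemma Ex_singleton (e : E) (g : (E → Bool) → ℝ) (x : E → Bool) :
    b.Ex {e} g x = b.p * g (Function.update x e true) + (1 - b.p) * g (Function.update x e false) := by
  unfold Ex
  simp_rw [Finset.piecewise_singleton]
  exact b.sum_wt_coord e (fun c => g (Function.update x e c))

/-- the discrete derivative -/
noncomputable def del (e : E) (g : (E → Bool) → ℝ) (x : E → Bool) : ℝ :=
  b.s * (g (Function.update x e true) - g (Function.update x e false))

lemma T_singleton (e : E) (ρ : ℝ) (g : (E → Bool) → ℝ) (x : E → Bool) :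
    b.T {e} ρ g x = b.Ex {e} g x + ρ * b.chi (x e) * b.del e g x := by
  rw [Ex_singleton]
  unfold T del ker
  simp_rw [Finset.piecewise_singleton, Finset.prod_singleton]
  have := b.sum_wt_coord e (fun c => (1 + ρ * b.chi (x e) * b.chi c) * g (Function.update x e c))
  simp_rw [mul_assoc] at this ⊢
  rw [this]
  have h1 := b.m_chi_true
  have h2 := b.m_chi_false
  simp only [m_true, m_false] at h1 h2
  linear_combination (ρ * b.chi (x e) * g (Function.update x e true)) * h1 +
    (ρ * b.chi (x e) * g (Function.update x e false)) * h2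

lemma fix_singleton_iff (e : E) (g : (E → Bool) → ℝ) :
    Fix {e} g ↔ ∀ x c, g (Function.update x e c) = g x := by
  unfold Fix
  simp_rw [Finset.piecewise_singleton]
  constructor
  · intro h x c
    have := h x (fun _ => c)
    simpa using this
  · intro h x w
    exact h x (w e)

lemma update_update_same' (x : E → Bool) (e : E) (c c' : Bool) :
    Function.update (Function.update x e c) e c' = Function.update x e c' :=
  Function.update_idem _ _ _

lemma fix_del (e : E) (g : (E → Bool) → ℝ) : Fix {e} (b.del e g) := by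
  rw [fix_singleton_iff]
  intro x c
  unfold del
  simp_rw [Function.update_idem]

lemma fix_Ex_singleton (e : E) (g : (E → Bool) → ℝ) : Fix {e} (b.Ex {e} g) := b.fix_Ex _ _

/-- one-coordinate decomposition -/
lemma decomp (e : E) (g : (E → Bool) → ℝ) (x : E → Bool) :
    g x = b.Ex {e} g x + b.chi (x e) * b.del e g x := by
  rw [Ex_singleton]
  unfold del
  have h1 := b.m_chi_true
  have h2 := b.m_chi_false
  rcases hx : x e with _ | _
  · have hup : Function.update x e false = x := by
      rw [← hx]; exact Function.update_eq_self _ _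
    rw [hup]
    have : b.chi false * b.s = - b.p := by
      simp only [chi_false]
      have := b.s_pos.ne'
      field_simp
    linear_combination (- (g (Function.update x e true) - g x)) * this
  · have hup : Function.update x e true = x := by
      rw [← hx]; exact Function.update_eq_self _ _
    rw [hup]
    have : b.chi true * b.s = 1 - b.p := by
      simp only [chi_true]
      have := b.s_pos.ne'
      field_simp
    linear_combination (- (g x - g (Function.update x e false))) * this

lemma Ex_singleton_chi (e : E) (c : (E → Bool) → ℝ) (hc : Fix {e} c) (x : E → Bool) :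
    b.Ex {e} (fun z => c z * b.chi (z e)) x = 0 := by
  rw [Ex_mul_left _ _ hc, Ex_singleton]
  simp only [Function.update_self]
  have h1 := b.chi_mean
  simp only [m_true, m_false] at h1
  rw [h1, mul_zero]

/-- Fourier coefficients of the derivative -/
theorem hat_del (e : E) (g : (E → Bool) → ℝ) (S : Finset E) :
    b.hat (b.del e g) S = if e ∈ S then 0 else b.hat g (insert e S) := by
  split_ifs with he
  · -- e ∈ S
    have hS : S = insert e (S.erase e) := (Finset.insert_erase he).symm
    have hc : Fix {e} (fun z => b.del e g z * b.cha (S.erase e) z) := by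
      rw [fix_singleton_iff]
      intro x c
      have h1 := (fix_singleton_iff e _).1 (b.fix_del e g) x c
      have h2 : b.cha (S.erase e) (Function.update x e c) = b.cha (S.erase e) x := by
        unfold cha
        refine Finset.prod_congr rfl (fun e' he' => ?_)
        rw [Function.update_of_ne (Finset.ne_of_mem_erase he')]
      rw [h1, h2]
    unfold hat
    rw [← b.ex_Ex {e}]
    have : ∀ x, b.Ex {e} (fun x => b.del e g x * b.cha S x) x = 0 := by
      intro x
      rw [← b.Ex_singleton_chi e _ hc x]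
      refine b.Ex_congr _ (fun z => ?_) x
      conv_lhs => rw [hS]
      unfold cha
      rw [Finset.prod_insert (Finset.notMem_erase e S)]
      ring
    rw [b.ex_congr this, ex_const]
  · -- e ∉ S
    unfold hat
    rw [← b.ex_Ex {e} (fun x => g x * b.cha (insert e S) x)]
    refine b.ex_congr (fun x => ?_)
    have hS : Fix {e} (b.cha S) := by
      rw [fix_singleton_iff]
      intro x c
      unfold cha
      refine Finset.prod_congr rfl (fun e' he' => ?_)
      have : e' ≠ e := fun h => he (h ▸ he')
      rw [Function.update_of_ne this]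
    have : ∀ z, g z * b.cha (insert e S) z = b.cha S z * (g z * b.chi (z e)) := by
      intro z
      unfold cha
      rw [Finset.prod_insert he]
      ring
    rw [b.Ex_congr _ this, b.Ex_mul_left _ hS, Ex_singleton]
    simp only [Function.update_self]
    unfold del
    have h1 := b.m_chi_true
    have h2 := b.m_chi_false
    simp only [m_true, m_false] at h1 h2
    linear_combination (- b.cha S x * g (Function.update x e true)) * h1 +
      (- b.cha S x * g (Function.update x e false)) * h2

end cube

end Bias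

end Crest.Agent.BC
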