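import Crest.Agent.BiasedCube.Params
import Crest.Prelude.Def_FinProb

/-!
# From Boolean functions and `bernoulliProb` to the analytic formulation
-/

set_option autoImplicit false
set_option linter.unusedSectionVars false
set_option linter.unusedVariables false
set_option linter.unusedSimpArgs false
set_option linter.deprecated false

open Finset

namespace Crest.Agent.BC

namespace Bias

variable (b : Bias) {E : Type*} [Fintype E] [DecidableEq E]

lemma bernoulliWeight_eq (x : E → Bool) : Crest.FinProb.bernoulliWeight b.p x = b.wt x := rfl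

lemma bernoulliProb_eq (S : Set (E → Bool)) (φ : (E → Bool) → ℝ)
    (h1 : ∀ x, x ∈ S → φ x = 1) (h0 : ∀ x, x ∉ S → φ x = 0) :
    Crest.FinProb.bernoulliProb b.p S = b.ex φ := by
  unfold Crest.FinProb.bernoulliProb ex
  classical
  rw [Finset.sum_filter]
  refine Finset.sum_congr rfl (fun x _ => ?_)
  rw [bernoulliWeight_eq]
  by_cases h : x ∈ S
  · simp [h, h1 x h]
  · simp [h, h0 x h]

/-- the real valued version of a Boolean function -/
noncomputable def bf (F : (E → Bool) → Bool) (x : E → Bool) : ℝ := if F x = true then 1 else 0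

lemma bf_01 (F : (E → Bool) → Bool) (x : E → Bool) : bf F x = 0 ∨ bf F x = 1 := by
  unfold bf
  by_cases h : F x = true <;> simp [h]

lemma var_eq (F : (E → Bool) → Bool) :
    b.ex (fun x => bf F x ^ 2) - b.ex (bf F) ^ 2 =
      Crest.FinProb.bernoulliProb b.p {x | F x = true} *
        (1 - Crest.FinProb.bernoulliProb b.p {x | F x = true}) := by
  have h1 : Crest.FinProb.bernoulliProb b.p {x | F x = true} = b.ex (bf F) := by
    apply b.bernoulliProb_eq
    · intro x hx
      simp only [Set.mem_setOf_eq] at hx
      simp [bf, hx]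
    · intro x hx
      simp only [Set.mem_setOf_eq] at hx
      simp [bf, hx]
  have h2 : b.ex (fun x => bf F x ^ 2) = b.ex (bf F) := by
    refine b.ex_congr (fun x => ?_)
    rcases bf_01 F x with h | h <;> rw [h] <;> norm_num
  rw [h1, h2]
  ring

lemma pivotal_eq (F : (E → Bool) → Bool) (e : E) :
    Crest.FinProb.bernoulliProb b.p
      {x | F (Function.update x e true) ≠ F (Function.update x e false)} =
      b.ex (fun x => b.del e (bf F) x ^ 2) / b.s ^ 2 := by
  have hs := b.s_pos
  have hval : ∀ x, b.del e (bf F) x ^ 2 / b.s ^ 2 =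
      (bf F (Function.update x e true) - bf F (Function.update x e false)) ^ 2 := by
    intro x
    unfold del
    field_simp
  rw [b.bernoulliProb_eq _ (fun x => b.del e (bf F) x ^ 2 / b.s ^ 2)]
  · rw [div_eq_mul_inv, mul_comm, ← ex_mul_const]
    refine b.ex_congr (fun x => ?_)
    rw [div_eq_mul_inv, mul_comm]
  · intro x hx
    simp only [Set.mem_setOf_eq] at hx
    rw [hval]
    unfold bf
    by_cases h1 : F (Function.update x e true) = true <;>
      by_cases h2 : F (Function.update x e false) = true <;>
      simp_all
  · intro x hx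
    simp only [Set.mem_setOf_eq, not_not] at hx
    rw [hval]
    unfold bf
    rw [hx]
    simp

lemma total_eq (F : (E → Bool) → Bool) :
    ∑ e, Crest.FinProb.bernoulliProb b.p
      {x | F (Function.update x e true) ≠ F (Function.update x e false)} =
      (∑ e, b.ex (fun x => b.del e (bf F) x ^ 2)) / b.s ^ 2 := by
  simp_rw [b.pivotal_eq F]
  rw [Finset.sum_div]

lemma total_nonneg (F : (E → Bool) → Bool) :
    0 ≤ ∑ e, Crest.FinProb.bernoulliProb b.p
      {x | F (Function.update x e true) ≠ F (Function.update x e false)} := by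
  rw [b.total_eq]
  have := b.sum_del_sq_nonneg (bf F)
  have := b.s_pos
  positivity

/-- the Poincaré inequality for Boolean functions -/
theorem poincare_bool (F : (E → Bool) → Bool) :
    Crest.FinProb.bernoulliProb b.p {x | F x = true} *
        (1 - Crest.FinProb.bernoulliProb b.p {x | F x = true}) ≤
      (1 / 4) * ∑ e, Crest.FinProb.bernoulliProb b.p
      {x | F (Function.update x e true) ≠ F (Function.update x e false)} := by
  rw [← b.var_eq F, b.total_eq]
  refine (b.poincare (bf F)).trans ?_
  have h1 := b.sum_del_sq_nonneg (bf F)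
  have hs := b.s_pos
  have hs2 := b.s_sq_le
  set S := ∑ e, b.ex (fun x => b.del e (bf F) x ^ 2)
  have h2 : S = b.s ^ 2 * (S / b.s ^ 2) := by
    field_simp
  have h3 : 0 ≤ S / b.s ^ 2 := by positivity
  nlinarith

end Bias

/-- The main inequality for Boolean functions invariant under the vertex relabellings. -/
theorem var_log_bool {V E : Type*} [Fintype V] [DecidableEq V] [Fintype E] [DecidableEq E] {r : ℕ}
    (I : Inc V E r) (hr : 2 ≤ r) (b : Bias) (F : (E → Bool) → Bool)
    (hsym : ∀ σ x, F (x ∘ I.act σ) = F x)
    (hn : 2 * r ≤ Fintype.card V) (hL : 724 ≤ Real.log (Fintype.card V)) :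
    Crest.FinProb.bernoulliProb b.p {x | F x = true} *
        (1 - Crest.FinProb.bernoulliProb b.p {x | F x = true}) ≤
      cstR r / Real.log (Fintype.card V) ^ ((r : ℝ) / ((r : ℝ) - 1)) *
        ∑ e, Crest.FinProb.bernoulliProb b.p
      {x | F (Function.update x e true) ≠ F (Function.update x e false)} := by
  rw [← b.var_eq F, b.total_eq]
  refine var_log I hr b (Bias.bf F) (Bias.bf_01 F) ?_ hn hL
  intro σ x
  unfold Bias.bf
  rw [hsym]

end Crest.Agent.BC
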