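import Crest.Agent.BiasedCube.Basic

/-!
# Fibrewise biased hypercontractivity and the low-degree bound
-/

set_option autoImplicit false
set_option linter.unusedSectionVars false
set_option linter.unusedVariables false
set_option linter.unusedSimpArgs false
set_option linter.deprecated false

open Finset

namespace Crest.Agent.BC
namespace Bias

variable (b : Bias) {E : Type*} [Fintype E] [DecidableEq E]

/-- self-adjointness of the partial noise operator within fibres -/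
lemma ker_comm (Y : Finset E) (ρ : ℝ) (w w' : E → Bool) : b.ker Y ρ w w' = b.ker Y ρ w' w := by
  unfold ker
  exact Finset.prod_congr rfl (fun e _ => by ring)

lemma ker_piecewise (Y : Finset E) (ρ : ℝ) (w w' x : E → Bool) :
    b.ker Y ρ (Y.piecewise w x) w' = b.ker Y ρ w w' := by
  unfold ker
  refine Finset.prod_congr rfl (fun e he => ?_)
  simp [Finset.piecewise, he]

lemma T_piecewise (Y : Finset E) (ρ : ℝ) (h : (E → Bool) → ℝ) (w x : E → Bool) :
    b.T Y ρ h (Y.piecewise w x) =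
      ∑ w', b.wt w' * b.ker Y ρ w w' * h (Y.piecewise w' x) := by
  unfold T
  refine Finset.sum_congr rfl (fun w' _ => ?_)
  rw [ker_piecewise, piecewise_piecewise_same]

theorem selfadj (Y : Finset E) (ρ : ℝ) (g h : (E → Bool) → ℝ) (x : E → Bool) :
    b.Ex Y (fun z => g z * b.T Y ρ h z) x = b.Ex Y (fun z => b.T Y ρ g z * h z) x := by
  unfold Ex
  simp_rw [T_piecewise]
  simp_rw [Finset.mul_sum, Finset.sum_mul, Finset.mul_sum]
  rw [Finset.sum_comm]
  refine Finset.sum_congr rfl (fun w _ => Finset.sum_congr rfl (fun w' _ => ?_))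
  rw [b.ker_comm Y ρ w w']
  ring

lemma chi_cube_bound : |b.m true * b.chi true ^ 3 + b.m false * b.chi false ^ 3| ≤ 1 / b.s := by
  have h := b.s_pos
  have hne := b.s_pos.ne'
  have h2 := b.s_sq
  have hval : b.m true * b.chi true ^ 3 + b.m false * b.chi false ^ 3 = (1 - 2 * b.p) / b.s := by
    simp only [m_true, m_false, chi_true, chi_false]
    field_simp
    rw [h2]
    ring
  rw [hval, abs_div, abs_of_pos h]
  apply div_le_div_of_nonneg_right _ h.le
  rw [abs_le]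
  constructor <;> linarith [b.p0, b.p1]

lemma chi_four_val : b.m true * b.chi true ^ 4 + b.m false * b.chi false ^ 4 ≤ 1 / b.s ^ 2 := by
  have h := b.s_pos
  have hne := b.s_pos.ne'
  have h2 := b.s_sq
  have hval : b.m true * b.chi true ^ 4 + b.m false * b.chi false ^ 4 =
      (1 - 3 * (b.p * (1 - b.p))) / b.s ^ 2 := by
    simp only [m_true, m_false, chi_true, chi_false]
    have hq : (1 - b.p) ≠ 0 := by linarith [b.p1]
    have hp : b.p ≠ 0 := b.p0.ne'
    field_simp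
    have h4 : b.s ^ 4 = (b.p * (1 - b.p)) ^ 2 := by rw [← h2]; ring
    rw [h2]
    ring
  rw [hval]
  apply div_le_div_of_nonneg_right _ (sq_nonneg _)
  nlinarith [b.pq_pos]

/-- the one-coordinate inequality -/
lemma scalar_hyper {v : ℝ} (hv0 : 0 ≤ v) (hv : v ^ 2 ≤ b.s / 2) (A C : ℝ) :
    b.p * (A + v * b.chi true * C) ^ 4 + (1 - b.p) * (A + v * b.chi false * C) ^ 4 ≤
      (A ^ 2 + C ^ 2) ^ 2 := by
  have hs := b.s_pos
  have hsle := b.s_le
  have M1 := b.chi_mean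
  have M2 := b.chi_sq_mean
  have M3 := b.chi_cube_bound
  have M4 := b.chi_four_val
  simp only [m_true, m_false] at M1 M2 M3 M4
  set χ₁ := b.chi true
  set χ₀ := b.chi false
  set γ := b.p * χ₁ ^ 3 + (1 - b.p) * χ₀ ^ 3 with hγ
  set κ := b.p * χ₁ ^ 4 + (1 - b.p) * χ₀ ^ 4 with hκ
  have hκ0 : 0 ≤ κ := by
    have h1 := b.p0
    have h2 : 0 < 1 - b.p := by linarith [b.p1]
    positivity
  have hexp : b.p * (A + v * χ₁ * C) ^ 4 + (1 - b.p) * (A + v * χ₀ * C) ^ 4 =
      A ^ 4 + 6 * v ^ 2 * (A ^ 2 * C ^ 2) + (4 * v ^ 3 * γ) * (A * C ^ 3) +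
        (v ^ 4 * κ) * C ^ 4 := by
    rw [hγ, hκ]
    linear_combination (4 * A ^ 3 * v * C) * M1 + (6 * A ^ 2 * v ^ 2 * C ^ 2) * M2
  rw [hexp]
  -- bounds on the coefficients
  have hv2 : v ^ 2 ≤ 1 / 4 := by linarith
  have hv1 : v ≤ 1 / 2 := by nlinarith
  have ha1 : 6 * v ^ 2 ≤ 3 / 2 := by linarith
  have ha2 : |4 * v ^ 3 * γ| ≤ 1 := by
    rw [abs_mul, abs_of_nonneg (by positivity : (0 : ℝ) ≤ 4 * v ^ 3)]
    have h1 : 4 * v ^ 3 * |γ| ≤ 4 * v ^ 3 * (1 / b.s) :=
      mul_le_mul_of_nonneg_left M3 (by positivity)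
    have h2 : 4 * v ^ 3 * (1 / b.s) ≤ 1 := by
      rw [mul_one_div, div_le_one hs]
      nlinarith [mul_nonneg hv0 (sub_nonneg.mpr hv), mul_nonneg hs.le (sub_nonneg.mpr hv1)]
    linarith
  have ha3 : v ^ 4 * κ ≤ 1 / 4 := by
    have h1 : v ^ 4 * κ ≤ v ^ 4 * (1 / b.s ^ 2) :=
      mul_le_mul_of_nonneg_left M4 (by positivity)
    have h2 : v ^ 4 * (1 / b.s ^ 2) ≤ 1 / 4 := by
      rw [mul_one_div, div_le_iff₀ (by positivity)]
      have : v ^ 4 = (v ^ 2) ^ 2 := by ring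
      rw [this]
      have h3 : (v ^ 2) ^ 2 ≤ (b.s / 2) ^ 2 := pow_le_pow_left₀ (sq_nonneg v) hv 2
      nlinarith
    linarith
  have ha30 : 0 ≤ v ^ 4 * κ := by positivity
  rw [abs_le] at ha2
  set a1 := 6 * v ^ 2
  set a2 := 4 * v ^ 3 * γ
  set a3 := v ^ 4 * κ
  have key : 0 ≤ C ^ 2 * ((2 - a1) * A ^ 2 - a2 * (A * C) + (1 - a3) * C ^ 2) := by
    apply mul_nonneg (sq_nonneg _)
    have h1 : 0 ≤ (a2 * C - A) ^ 2 / 2 := by positivity
    have h2 : a2 ^ 2 ≤ 1 := by nlinarith [ha2.1, ha2.2]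
    have h3 : 0 ≤ (1 - a2 ^ 2) * C ^ 2 := mul_nonneg (by linarith) (sq_nonneg _)
    have h4 : 0 ≤ (3 / 2 - a1) * A ^ 2 := mul_nonneg (by linarith) (sq_nonneg _)
    have h5 : 0 ≤ (1 / 4 - a3) * C ^ 2 := mul_nonneg (by linarith) (sq_nonneg _)
    nlinarith
  nlinarith

lemma fix_T_of_not_mem {Y : Finset E} {e : E} (he : e ∉ Y) (ρ : ℝ) {g : (E → Bool) → ℝ}
    (hg : Fix {e} g) : Fix {e} (b.T Y ρ g) := by
  rw [fix_singleton_iff] at hg ⊢
  intro x c
  unfold T
  refine Finset.sum_congr rfl (fun w _ => ?_)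
  have h1 : b.ker Y ρ (Function.update x e c) w = b.ker Y ρ x w := by
    unfold ker
    refine Finset.prod_congr rfl (fun e' he' => ?_)
    have : e' ≠ e := fun h => he (h ▸ he')
    rw [Function.update_of_ne this]
  have h2 : Y.piecewise w (Function.update x e c) = Function.update (Y.piecewise w x) e c := by
    funext e'
    by_cases he' : e' = e
    · subst he'
      simp [Finset.piecewise, he]
    · by_cases h3 : e' ∈ Y <;> simp [Finset.piecewise, h3, he']
  rw [h1, h2, hg]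

lemma fix_chi_of_not_mem {Y : Finset E} {e : E} (he : e ∉ Y) :
    Fix Y (fun z : E → Bool => b.chi (z e)) := by
  intro x w
  simp [Finset.piecewise, he]

/-- Biased (2,4)-hypercontractivity in the coordinates of `Y`, fibrewise. -/
theorem hyper {v : ℝ} (hv0 : 0 ≤ v) (hv : v ^ 2 ≤ b.s / 2) (Y : Finset E) :
    ∀ (h : (E → Bool) → ℝ) (x : E → Bool),
      b.Ex Y (fun z => (b.T Y v h z) ^ 4) x ≤ (b.Ex Y (fun z => h z ^ 2) x) ^ 2 := by
  induction Y using Finset.induction_on with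
  | empty =>
    intro h x
    simp only [T_empty, Ex_empty]
    apply le_of_eq
    ring
  | insert e Y₀ he ih =>
    intro h x
    set a := b.Ex {e} h with ha
    set c := b.del e h with hc
    set A := b.T Y₀ v a with hA
    set C := b.T Y₀ v c with hC
    have hins : insert e Y₀ = Y₀ ∪ {e} := by
      rw [Finset.union_comm]; rfl
    have hdisj : Disjoint Y₀ {e} := Finset.disjoint_singleton_right.mpr he
    -- formula for the noise
    have hT1 : b.T {e} v h = fun z => a z + v * (b.chi (z e) * c z) := by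
      funext z
      rw [T_singleton]
      ring
    have hT : ∀ z, b.T (insert e Y₀) v h z = A z + v * b.chi (z e) * C z := by
      intro z
      rw [hins, ← b.T_T_disj hdisj, hT1, T_add, T_mul_const,
        T_mul_left _ _ _ (b.fix_chi_of_not_mem he)]
      ring
    have hAfix := (fix_singleton_iff e A).1 (b.fix_T_of_not_mem he v (b.fix_Ex _ h))
    have hCfix := (fix_singleton_iff e C).1 (b.fix_T_of_not_mem he v (b.fix_del e h))
    -- integrate out e
    have hEx : ∀ φ : (E → Bool) → ℝ, b.Ex (insert e Y₀) φ = b.Ex Y₀ (b.Ex {e} φ) := by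
      intro φ
      rw [Ex_Ex, hins]
    have hstep : ∀ z, b.Ex {e} (fun z => (b.T (insert e Y₀) v h z) ^ 4) z ≤
        (A z ^ 2 + C z ^ 2) ^ 2 := by
      intro z
      rw [Ex_singleton]
      simp only [hT, hAfix, hCfix, Function.update_self]
      exact b.scalar_hyper hv0 hv _ _
    have hsq : ∀ z, b.Ex {e} (fun z => h z ^ 2) z = a z ^ 2 + c z ^ 2 := by
      intro z
      rw [ha, hc, Ex_singleton, Ex_singleton]
      unfold del
      have h2 := b.s_sq
      linear_combination (-(h (Function.update z e true) - h (Function.update z e false)) ^ 2) * h2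
    rw [hEx, hEx]
    have hR : b.Ex Y₀ (b.Ex {e} fun z => h z ^ 2) x =
        b.Ex Y₀ (fun z => a z ^ 2) x + b.Ex Y₀ (fun z => c z ^ 2) x := by
      rw [← Ex_add]
      exact b.Ex_congr _ hsq x
    rw [hR]
    set X := b.Ex Y₀ (fun z => a z ^ 2) x with hX
    set W := b.Ex Y₀ (fun z => c z ^ 2) x with hW
    have hX0 : 0 ≤ X := b.Ex_nonneg _ (fun _ => sq_nonneg _) x
    have hW0 : 0 ≤ W := b.Ex_nonneg _ (fun _ => sq_nonneg _) x
    have hA4 : b.Ex Y₀ (fun z => A z ^ 4) x ≤ X ^ 2 := ih a x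
    have hC4 : b.Ex Y₀ (fun z => C z ^ 4) x ≤ W ^ 2 := ih c x
    have hA40 : 0 ≤ b.Ex Y₀ (fun z => A z ^ 4) x :=
      b.Ex_nonneg _ (fun z => by positivity) x
    have hC40 : 0 ≤ b.Ex Y₀ (fun z => C z ^ 4) x :=
      b.Ex_nonneg _ (fun z => by positivity) x
    have hcs := b.Ex_cs Y₀ (fun z => A z ^ 2) (fun z => C z ^ 2) x
    have hAA : (fun z => (A z ^ 2) ^ 2) = fun z => A z ^ 4 := by
      funext z; ring
    have hCC : (fun z => (C z ^ 2) ^ 2) = fun z => C z ^ 4 := by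
      funext z; ring
    simp only [hAA, hCC] at hcs
    set Z := b.Ex Y₀ (fun z => A z ^ 2 * C z ^ 2) x with hZ
    have hZ0 : 0 ≤ Z := b.Ex_nonneg _ (fun z => by positivity) x
    have hZle : Z ≤ X * W := by
      have h1 : Z ^ 2 ≤ (X * W) ^ 2 := by
        calc Z ^ 2 ≤ _ := hcs
          _ ≤ X ^ 2 * W ^ 2 := mul_le_mul hA4 hC4 hC40 (sq_nonneg _)
          _ = (X * W) ^ 2 := by ring
      exact le_of_sq_le_sq h1 (mul_nonneg hX0 hW0)
    calc b.Ex Y₀ (b.Ex {e} fun z => b.T (insert e Y₀) v h z ^ 4) x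
        ≤ b.Ex Y₀ (fun z => (A z ^ 2 + C z ^ 2) ^ 2) x := b.Ex_mono _ hstep x
      _ = b.Ex Y₀ (fun z => A z ^ 4) x + 2 * Z + b.Ex Y₀ (fun z => C z ^ 4) x := by
          rw [hZ, ← Ex_mul_const, ← Ex_add, ← Ex_add]
          exact b.Ex_congr _ (fun z => by ring) x
      _ ≤ (X + W) ^ 2 := by nlinarith

/-- the fibrewise bound for the truncated function -/
theorem fibre_pointwise (Y : Finset E) (G : (E → Bool) → ℝ) {lam ω : ℝ} (hlam : 0 < lam)
    (hω : 0 < ω) {v : ℝ} (hv0 : 0 ≤ v) (hv : v ^ 2 ≤ b.s / 2) (x : E → Bool) :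
    b.Ex Y (fun z => (b.T Y v (fun w => if lam ≤ |G w| then G w else 0) z) ^ 2) x ≤
      (ω * b.Ex Y (fun z => G z ^ 2) x + (b.Ex Y (fun z => G z ^ 2) x) ^ 2 / ω) / (2 * lam) := by
  set G₁ : (E → Bool) → ℝ := fun w => if lam ≤ |G w| then G w else 0 with hG₁
  set L : (E → Bool) → ℝ := fun w => if lam ≤ |G w| then 1 else 0 with hL
  set h := b.T Y v G₁ with hh
  set W := b.T Y v h with hW
  set m := b.Ex Y (fun z => G z ^ 2) x with hm
  set X := b.Ex Y (fun z => h z ^ 2) x with hX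
  have hm0 : 0 ≤ m := b.Ex_nonneg _ (fun _ => sq_nonneg _) x
  have hX0 : 0 ≤ X := b.Ex_nonneg _ (fun _ => sq_nonneg _) x
  have h1 : X = b.Ex Y (fun z => G z * (L z * W z)) x := by
    have h1' : X = b.Ex Y (fun z => b.T Y v G₁ z * h z) x :=
      b.Ex_congr _ (fun z => by rw [← hh]; ring) x
    rw [h1', ← selfadj]
    refine b.Ex_congr _ (fun z => ?_) x
    simp only [hG₁, hL]
    split_ifs <;> ring
  set Z := b.Ex Y (fun z => (L z * W z) ^ 2) x with hZ
  have hZ0 : 0 ≤ Z := b.Ex_nonneg _ (fun _ => sq_nonneg _) x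
  have h2 : X ^ 2 ≤ m * Z := by
    rw [h1]
    exact b.Ex_cs Y G (fun z => L z * W z) x
  have h3 : Z ^ 2 ≤ b.Ex Y (fun z => (L z ^ 2) ^ 2) x * b.Ex Y (fun z => W z ^ 4) x := by
    have h3' := b.Ex_cs Y (fun z => L z ^ 2) (fun z => W z ^ 2) x
    have hWW : (fun z => (W z ^ 2) ^ 2) = fun z => W z ^ 4 := by
      funext z; ring
    simp only [hWW] at h3'
    have hZ' : Z = b.Ex Y (fun z => L z ^ 2 * W z ^ 2) x :=
      b.Ex_congr _ (fun z => by ring) x
    rw [hZ']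
    exact h3'
  have h4 : b.Ex Y (fun z => (L z ^ 2) ^ 2) x ≤ m / lam ^ 2 := by
    have : m / lam ^ 2 = b.Ex Y (fun z => (1 / lam ^ 2) * G z ^ 2) x := by
      rw [Ex_mul_const]
      ring
    rw [this]
    refine b.Ex_mono _ (fun z => ?_) x
    simp only [hL]
    split_ifs with hz
    · have h5 : lam ^ 2 ≤ G z ^ 2 := by
        rw [← sq_abs (G z)]
        exact pow_le_pow_left₀ hlam.le hz 2
      rw [one_div, ← div_eq_inv_mul, one_pow, one_pow, le_div_iff₀ (by positivity), one_mul]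
      exact h5
    · have h5 : 0 ≤ 1 / lam ^ 2 * G z ^ 2 := by positivity
      simpa using h5
  have h40 : 0 ≤ b.Ex Y (fun z => (L z ^ 2) ^ 2) x := b.Ex_nonneg _ (fun _ => by positivity) x
  have h5 : b.Ex Y (fun z => W z ^ 4) x ≤ X ^ 2 := b.hyper hv0 hv Y h x
  have h50 : 0 ≤ b.Ex Y (fun z => W z ^ 4) x := b.Ex_nonneg _ (fun _ => by positivity) x
  have hZ2 : Z ^ 2 ≤ m / lam ^ 2 * X ^ 2 := h3.trans (mul_le_mul h4 h5 h50 (by positivity))
  set R := (ω * m + m ^ 2 / ω) / (2 * lam) with hR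
  have hR0 : 0 ≤ R := by positivity
  have hR2 : m ^ 3 / lam ^ 2 ≤ R ^ 2 := by
    rw [hR, div_pow, div_le_div_iff₀ (by positivity) (by positivity)]
    have : (ω * m + m ^ 2 / ω) ^ 2 ≥ 4 * m ^ 3 := by
      have h6 : (ω * m) * (m ^ 2 / ω) = m ^ 3 := by
        field_simp
      nlinarith [sq_nonneg (ω * m - m ^ 2 / ω)]
    have h7 : (2 * lam) ^ 2 = 4 * lam ^ 2 := by ring
    rw [h7]
    nlinarith [mul_le_mul_of_nonneg_right this (by positivity : (0 : ℝ) ≤ lam ^ 2)]
  by_cases hXz : X = 0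
  · rw [hXz]; exact hR0
  · have hXpos : 0 < X := lt_of_le_of_ne hX0 (Ne.symm hXz)
    have h8 : X ^ 4 ≤ m ^ 3 / lam ^ 2 * X ^ 2 := by
      have h9 : (X ^ 2) ^ 2 ≤ (m * Z) ^ 2 := pow_le_pow_left₀ (by positivity) h2 2
      have h10 : (m * Z) ^ 2 = m ^ 2 * Z ^ 2 := by ring
      have h11 : m ^ 2 * Z ^ 2 ≤ m ^ 2 * (m / lam ^ 2 * X ^ 2) :=
        mul_le_mul_of_nonneg_left hZ2 (by positivity)
      have h12 : m ^ 2 * (m / lam ^ 2 * X ^ 2) = m ^ 3 / lam ^ 2 * X ^ 2 := by ring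
      have h13 : X ^ 4 = (X ^ 2) ^ 2 := by ring
      rw [h13]
      linarith
    have h14 : X ^ 2 ≤ m ^ 3 / lam ^ 2 := by
      have h15 : 0 < X ^ 2 := by positivity
      have h16 : X ^ 2 * X ^ 2 ≤ m ^ 3 / lam ^ 2 * X ^ 2 := by
        have : X ^ 2 * X ^ 2 = X ^ 4 := by ring
        rw [this]
        exact h8
      exact le_of_mul_le_mul_right h16 h15
    exact le_of_sq_le_sq (h14.trans hR2) hR0

/-- the bound on low-degree (in `Y`) weight of an arbitrary function -/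
theorem low_degree_bound (Y : Finset E) (G : (E → Bool) → ℝ) {lam ω : ℝ} (hlam : 0 < lam)
    (hω : 0 < ω) (D : ℕ) :
    ∑ S ∈ univ.filter (fun S : Finset E => (S ∩ Y).card ≤ D), b.hat G S ^ 2 ≤
      (2 / b.s) ^ D * (ω * b.ex (fun x => G x ^ 2) +
          b.ex (fun x => (b.Ex Y (fun z => G z ^ 2) x) ^ 2) / ω) / lam +
        2 * lam * b.ex (fun x => |G x|) := by
  have hs := b.s_pos
  have hsle := b.s_le
  set v := Real.sqrt (b.s / 2) with hv
  have hv0 : 0 ≤ v := Real.sqrt_nonneg _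
  have hv2 : v ^ 2 = b.s / 2 := Real.sq_sqrt (by positivity)
  set G₁ : (E → Bool) → ℝ := fun w => if lam ≤ |G w| then G w else 0 with hG₁
  set G₂ : (E → Bool) → ℝ := fun w => if lam ≤ |G w| then 0 else G w with hG₂
  have hdec : G = fun x => G₁ x + G₂ x := by
    funext x
    simp only [hG₁, hG₂]
    split_ifs <;> simp
  have hhat : ∀ S, b.hat G S = b.hat G₁ S + b.hat G₂ S := by
    intro S
    conv_lhs => rw [hdec]
    exact b.hat_add _ _ _
  set F := univ.filter (fun S : Finset E => (S ∩ Y).card ≤ D) with hF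
  -- part two
  have hA : ∑ S ∈ F, b.hat G₂ S ^ 2 ≤ lam * b.ex (fun x => |G x|) := by
    calc ∑ S ∈ F, b.hat G₂ S ^ 2 ≤ ∑ S : Finset E, b.hat G₂ S ^ 2 :=
          Finset.sum_le_sum_of_subset_of_nonneg (Finset.filter_subset _ _)
            (fun _ _ _ => sq_nonneg _)
      _ = b.ex (fun x => G₂ x ^ 2) := (b.parseval_sq G₂).symm
      _ ≤ b.ex (fun x => lam * |G x|) := by
          refine b.ex_mono (fun x => ?_)
          simp only [hG₂]
          split_ifs with hx
          · have : 0 ≤ lam * |G x| := by positivity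
            simpa using this
          · push Not at hx
            rw [← sq_abs]
            nlinarith [abs_nonneg (G x)]
      _ = lam * b.ex (fun x => |G x|) := b.ex_mul_const _ _
  -- part one
  have hB : ∑ S ∈ F, b.hat G₁ S ^ 2 ≤ (2 / b.s) ^ D *
      ((ω * b.ex (fun x => G x ^ 2) +
          b.ex (fun x => (b.Ex Y (fun z => G z ^ 2) x) ^ 2) / ω) / (2 * lam)) := by
    have h2s : 1 ≤ 2 / b.s := by
      rw [le_div_iff₀ hs]
      linarith
    have hterm : ∀ S ∈ F, b.hat G₁ S ^ 2 ≤ (2 / b.s) ^ D * b.hat (b.T Y v G₁) S ^ 2 := by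
      intro S hS
      have hS' : (S ∩ Y).card ≤ D := (Finset.mem_filter.mp hS).2
      rw [hat_T, mul_pow, ← pow_mul, mul_comm (S ∩ Y).card 2, pow_mul, hv2]
      have h3 : (2 / b.s) ^ (S ∩ Y).card ≤ (2 / b.s) ^ D := pow_le_pow_right₀ h2s hS'
      have h4 : (2 / b.s) ^ (S ∩ Y).card * (b.s / 2) ^ (S ∩ Y).card = 1 := by
        rw [← mul_pow]
        have : 2 / b.s * (b.s / 2) = 1 := by field_simp
        rw [this, one_pow]
      have h5 : 0 ≤ (b.s / 2) ^ (S ∩ Y).card * b.hat G₁ S ^ 2 := by positivity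
      calc b.hat G₁ S ^ 2 = (2 / b.s) ^ (S ∩ Y).card * ((b.s / 2) ^ (S ∩ Y).card * b.hat G₁ S ^ 2) := by
            rw [← mul_assoc, h4, one_mul]
        _ ≤ (2 / b.s) ^ D * ((b.s / 2) ^ (S ∩ Y).card * b.hat G₁ S ^ 2) :=
            mul_le_mul_of_nonneg_right h3 h5
    calc ∑ S ∈ F, b.hat G₁ S ^ 2 ≤ ∑ S ∈ F, (2 / b.s) ^ D * b.hat (b.T Y v G₁) S ^ 2 :=
          Finset.sum_le_sum hterm
      _ = (2 / b.s) ^ D * ∑ S ∈ F, b.hat (b.T Y v G₁) S ^ 2 := by rw [Finset.mul_sum]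
      _ ≤ (2 / b.s) ^ D * ∑ S : Finset E, b.hat (b.T Y v G₁) S ^ 2 := by
          refine mul_le_mul_of_nonneg_left ?_ (by positivity)
          exact Finset.sum_le_sum_of_subset_of_nonneg (Finset.filter_subset _ _)
            (fun _ _ _ => sq_nonneg _)
      _ = (2 / b.s) ^ D * b.ex (fun x => b.T Y v G₁ x ^ 2) := by
          rw [b.parseval_sq]
      _ = (2 / b.s) ^ D * b.ex (b.Ex Y (fun x => b.T Y v G₁ x ^ 2)) := by
          rw [ex_Ex]
      _ ≤ (2 / b.s) ^ D * b.ex (fun x => (ω * b.Ex Y (fun z => G z ^ 2) x +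
            (b.Ex Y (fun z => G z ^ 2) x) ^ 2 / ω) / (2 * lam)) := by
          refine mul_le_mul_of_nonneg_left ?_ (by positivity)
          exact b.ex_mono (fun x => b.fibre_pointwise Y G hlam hω hv0 hv2.le x)
      _ = _ := by
          congr 1
          have : ∀ x, (ω * b.Ex Y (fun z => G z ^ 2) x +
              (b.Ex Y (fun z => G z ^ 2) x) ^ 2 / ω) / (2 * lam) =
              (1 / (2 * lam)) * (ω * b.Ex Y (fun z => G z ^ 2) x +
              (1 / ω) * (b.Ex Y (fun z => G z ^ 2) x) ^ 2) := by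
            intro x
            field_simp
          rw [b.ex_congr this, ex_mul_const, ex_add, ex_mul_const, ex_mul_const, ex_Ex]
          field_simp
  have hsplit : ∑ S ∈ F, b.hat G S ^ 2 ≤
      2 * ∑ S ∈ F, b.hat G₁ S ^ 2 + 2 * ∑ S ∈ F, b.hat G₂ S ^ 2 := by
    rw [Finset.mul_sum, Finset.mul_sum, ← Finset.sum_add_distrib]
    refine Finset.sum_le_sum (fun S _ => ?_)
    rw [hhat S]
    nlinarith [sq_nonneg (b.hat G₁ S - b.hat G₂ S)]
  have hfinal : 2 * ((2 / b.s) ^ D *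
      ((ω * b.ex (fun x => G x ^ 2) +
          b.ex (fun x => (b.Ex Y (fun z => G z ^ 2) x) ^ 2) / ω) / (2 * lam))) =
      (2 / b.s) ^ D * (ω * b.ex (fun x => G x ^ 2) +
          b.ex (fun x => (b.Ex Y (fun z => G z ^ 2) x) ^ 2) / ω) / lam := by
    field_simp
  linarith

end Bias
end Crest.Agent.BC
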