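import Crest.Agent.BiasedCube.Star

/-!
# Uniform incidence structures with a permutation action, and the variance bound
-/

set_option autoImplicit false
set_option linter.unusedSectionVars false
set_option linter.unusedVariables false
set_option linter.unusedSimpArgs false
set_option linter.deprecated false

open Finset

namespace Crest.Agent.BC

/-- A family of coordinates `E` whose elements are identified with `r`-sets of vertices,
stable under the permutations of the vertices. -/
structure Inc (V E : Type*) [Fintype V] [DecidableEq V] [Fintype E] [DecidableEq E] (r : ℕ) where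
  inc : E → Finset V
  card_inc : ∀ e, (inc e).card = r
  inc_inj : Function.Injective inc
  act : Equiv.Perm V → E → E
  inc_act : ∀ σ e, inc (act σ e) = (inc e).map σ.toEmbedding

namespace Inc

variable {V E : Type*} [Fintype V] [DecidableEq V] [Fintype E] [DecidableEq E] {r : ℕ}
variable (I : Inc V E r)

lemma mem_inc_act_swap (a a' v : V) (e : E) :
    v ∈ I.inc (I.act (Equiv.swap a a') e) ↔ Equiv.swap a a' v ∈ I.inc e := by
  rw [I.inc_act, Finset.mem_map_equiv]
  rfl

lemma act_swap_invol (a a' : V) (e : E) :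
    I.act (Equiv.swap a a') (I.act (Equiv.swap a a') e) = e := by
  apply I.inc_inj
  ext v
  rw [mem_inc_act_swap, mem_inc_act_swap, Equiv.swap_apply_self]

/-- the coordinate permutation induced by the transposition `(a a')`. -/
def swp (a a' : V) : E ≃ E where
  toFun := I.act (Equiv.swap a a')
  invFun := I.act (Equiv.swap a a')
  left_inv := I.act_swap_invol a a'
  right_inv := I.act_swap_invol a a'

lemma swp_apply (a a' : V) (e : E) : I.swp a a' e = I.act (Equiv.swap a a') e := rfl

lemma swp_symm_apply (a a' : V) (e : E) : (I.swp a a').symm e = I.act (Equiv.swap a a') e := rfl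

lemma mem_inc_swp (a a' v : V) (e : E) :
    v ∈ I.inc (I.swp a a' e) ↔ Equiv.swap a a' v ∈ I.inc e := I.mem_inc_act_swap a a' v e

/-- the edges containing `a` but not `a'` -/
def yy (a a' : V) : Finset E := univ.filter (fun e => a ∈ I.inc e ∧ a' ∉ I.inc e)

lemma mem_yy (a a' : V) (e : E) : e ∈ I.yy a a' ↔ a ∈ I.inc e ∧ a' ∉ I.inc e := by
  simp [yy]

lemma map_yy (a a' : V) : (I.yy a a').map (I.swp a a').toEmbedding = I.yy a' a := by
  ext e
  rw [Finset.mem_map_equiv, swp_symm_apply, mem_yy, mem_yy, ← swp_apply, mem_inc_swp, mem_inc_swp,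
    Equiv.swap_apply_left, Equiv.swap_apply_right]

lemma map_yy' (a a' : V) : (I.yy a' a).map (I.swp a a').toEmbedding = I.yy a a' := by
  ext e
  rw [Finset.mem_map_equiv, swp_symm_apply, mem_yy, mem_yy, ← swp_apply, mem_inc_swp, mem_inc_swp,
    Equiv.swap_apply_left, Equiv.swap_apply_right]

lemma swp_fix (a a' : V) (e : E) (he : e ∉ I.yy a a' ∪ I.yy a' a) : I.swp a a' e = e := by
  apply I.inc_inj
  rw [Finset.mem_union, mem_yy, mem_yy] at he
  push Not at he
  have hiff : a ∈ I.inc e ↔ a' ∈ I.inc e := by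
    constructor
    · intro h
      exact he.1 h
    · intro h
      exact he.2 h
  ext v
  rw [mem_inc_swp]
  by_cases h1 : v = a
  · subst h1
    rw [Equiv.swap_apply_left]
    exact hiff.symm
  · by_cases h2 : v = a'
    · subst h2
      rw [Equiv.swap_apply_right]
      exact hiff
    · rw [Equiv.swap_apply_of_ne_of_ne h1 h2]

/-- degree of a vertex in a set of edges -/
def deg (T : Finset E) (v : V) : ℕ := (T.filter (fun e => v ∈ I.inc e)).card

lemma sum_deg (T : Finset E) : ∑ v, I.deg T v = r * T.card := by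
  unfold deg
  simp_rw [Finset.card_filter]
  rw [Finset.sum_comm]
  have : ∀ e ∈ T, ∑ v, (if v ∈ I.inc e then 1 else 0) = r := by
    intro e _
    rw [← Finset.card_filter, Finset.filter_mem_eq_inter, Finset.univ_inter, I.card_inc]
  rw [Finset.sum_congr rfl this, Finset.sum_const, smul_eq_mul, mul_comm]

lemma deg_le_pow (T : Finset E) (hr : 1 ≤ r) (a : V) :
    I.deg T a ≤ (T.biUnion I.inc).card ^ (r - 1) := by
  unfold deg
  set U := T.biUnion I.inc with hU
  have hmap : ∀ e ∈ T.filter (fun e => a ∈ I.inc e),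
      (I.inc e).erase a ∈ U.powersetCard (r - 1) := by
    intro e he
    have he' := Finset.mem_filter.mp he
    rw [Finset.mem_powersetCard]
    constructor
    · intro v hv
      exact Finset.mem_biUnion.mpr ⟨e, he'.1, Finset.mem_of_mem_erase hv⟩
    · rw [Finset.card_erase_of_mem he'.2, I.card_inc]
  have hinj : Set.InjOn (fun e => (I.inc e).erase a)
      (T.filter (fun e => a ∈ I.inc e) : Set E) := by
    intro e he e' he' heq
    have h1 := (Finset.mem_filter.mp (Finset.mem_coe.mp he)).2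
    have h2 := (Finset.mem_filter.mp (Finset.mem_coe.mp he')).2
    apply I.inc_inj
    simp only at heq
    rw [← Finset.insert_erase h1, ← Finset.insert_erase h2, heq]
  calc (T.filter (fun e => a ∈ I.inc e)).card ≤ (U.powersetCard (r - 1)).card :=
        Finset.card_le_card_of_injOn _ hmap hinj
    _ = U.card.choose (r - 1) := Finset.card_powersetCard _ _
    _ ≤ U.card ^ (r - 1) := Nat.choose_le_pow _ _

/-- If every non-isolated vertex has degree at least `d` the set of edges is large. -/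
lemma pow_le_of_min_deg (T : Finset E) (hT : T.Nonempty) (hr : 1 ≤ r) {d : ℕ}
    (hmin : ∀ e ∈ T, ∀ a ∈ I.inc e, d ≤ I.deg T a) :
    d ^ r ≤ (r * T.card) ^ (r - 1) := by
  set U := T.biUnion I.inc with hU
  have hmin' : ∀ a ∈ U, d ≤ I.deg T a := by
    intro a ha
    obtain ⟨e, he, hae⟩ := Finset.mem_biUnion.mp ha
    exact hmin e he a hae
  obtain ⟨e, he⟩ := hT
  have hne : (I.inc e).Nonempty := by
    rw [← Finset.card_pos, I.card_inc]
    omega
  obtain ⟨a, ha⟩ := hne
  have haU : a ∈ U := Finset.mem_biUnion.mpr ⟨e, he, ha⟩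
  have h1 : d ≤ U.card ^ (r - 1) := (hmin' a haU).trans (I.deg_le_pow T hr a)
  have h2 : U.card * d ≤ r * T.card := by
    rw [← I.sum_deg T]
    calc U.card * d = ∑ v ∈ U, d := by rw [Finset.sum_const, smul_eq_mul]
      _ ≤ ∑ v ∈ U, I.deg T v := Finset.sum_le_sum hmin'
      _ ≤ ∑ v, I.deg T v := Finset.sum_le_sum_of_subset (Finset.subset_univ _)
  have h3 : r = (r - 1) + 1 := by omega
  calc d ^ r = d ^ (r - 1) * d := by
        conv_lhs => rw [h3]
        rw [pow_succ]
    _ ≤ d ^ (r - 1) * U.card ^ (r - 1) := Nat.mul_le_mul_left _ h1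
    _ = (U.card * d) ^ (r - 1) := by rw [mul_pow, mul_comm]
    _ ≤ (r * T.card) ^ (r - 1) := Nat.pow_le_pow_left h2 _

/-- the index set of a star -/
abbrev Idx (e₀ : E) : Type _ := {a' : V // a' ∉ I.inc e₀}

lemma card_Idx (e₀ : E) : Fintype.card (I.Idx e₀) = Fintype.card V - r := by
  rw [Fintype.card_of_subtype (I.inc e₀)ᶜ (by simp), Finset.card_compl, I.card_inc]

lemma swp_inj {e₀ : E} {a : V} (ha : a ∈ I.inc e₀) :
    Function.Injective (fun a' : I.Idx e₀ => I.swp a a'.1 e₀) := by
  intro a' a'' h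
  simp only at h
  have h1 : a'.1 ∈ I.inc (I.swp a a'.1 e₀) := by
    rw [mem_inc_swp, Equiv.swap_apply_right]
    exact ha
  rw [h, mem_inc_swp] at h1
  apply Subtype.ext
  by_cases h2 : a'.1 = a
  · exact absurd (h2 ▸ ha) a'.2
  · by_cases h3 : a'.1 = a''.1
    · exact h3
    · rw [Equiv.swap_apply_of_ne_of_ne h2 h3] at h1
      exact absurd h1 a'.2

lemma cov (e₀ : E) (a : V) (e : E) :
    (univ.filter (fun a' : I.Idx e₀ => e ∈ I.yy a'.1 a)).card ≤ r := by
  refine le_trans ?_ (le_of_eq (I.card_inc e))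
  refine Finset.card_le_card_of_injOn (fun a' => a'.1) ?_ ?_
  · intro a' ha'
    have h := (Finset.mem_filter.mp (Finset.mem_coe.mp ha')).2
    exact ((I.mem_yy _ _ _).1 h).1
  · intro a' _ a'' _ h
    exact Subtype.ext h

/-- Half of the vertices outside `e₀` are good. -/
lemma half_good (e₀ : E) (a : V) {T : Finset E} {d : ℕ} (hd : 1 ≤ d)
    (hdeg : I.deg T a + 1 ≤ d)
    (hT : 2 * (r * T.card) ≤ Fintype.card (I.Idx e₀) * d) :
    Fintype.card (I.Idx e₀) ≤ 2 * (univ.filter (fun a' : I.Idx e₀ =>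
      ((T.erase e₀) ∩ (I.yy a a'.1 ∪ I.yy a'.1 a)).card ≤ 2 * (d - 1))).card := by
  set good := univ.filter (fun a' : I.Idx e₀ =>
      ((T.erase e₀) ∩ (I.yy a a'.1 ∪ I.yy a'.1 a)).card ≤ 2 * (d - 1)) with hgood
  set bad := univ.filter (fun a' : I.Idx e₀ => d ≤ I.deg T a'.1) with hbad
  have h1 : bad.card * d ≤ r * T.card := by
    rw [← I.sum_deg T]
    calc bad.card * d = ∑ a' ∈ bad, d := by rw [Finset.sum_const, smul_eq_mul]
      _ ≤ ∑ a' ∈ bad, I.deg T a'.1 :=
          Finset.sum_le_sum (fun a' ha' => (Finset.mem_filter.mp ha').2)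
      _ = ∑ v ∈ bad.map (Function.Embedding.subtype _), I.deg T v := by
          rw [Finset.sum_map]
          rfl
      _ ≤ ∑ v, I.deg T v := Finset.sum_le_sum_of_subset (Finset.subset_univ _)
  have h2 : 2 * bad.card ≤ Fintype.card (I.Idx e₀) := by
    have h3 : 2 * bad.card * d ≤ Fintype.card (I.Idx e₀) * d := by
      calc 2 * bad.card * d = 2 * (bad.card * d) := by ring
        _ ≤ 2 * (r * T.card) := Nat.mul_le_mul_left _ h1
        _ ≤ _ := hT
    exact Nat.le_of_mul_le_mul_right h3 (by omega)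
  have h4 : (univ : Finset (I.Idx e₀)) ⊆ good ∪ bad := by
    intro a' _
    by_cases hab : d ≤ I.deg T a'.1
    · exact Finset.mem_union_right _ (Finset.mem_filter.mpr ⟨Finset.mem_univ _, hab⟩)
    · apply Finset.mem_union_left
      rw [hgood, Finset.mem_filter]
      refine ⟨Finset.mem_univ _, ?_⟩
      push Not at hab
      have hsub : (T.erase e₀) ∩ (I.yy a a'.1 ∪ I.yy a'.1 a) ⊆
          T.filter (fun e => a ∈ I.inc e) ∪ T.filter (fun e => a'.1 ∈ I.inc e) := by
        intro e he
        rw [Finset.mem_inter, Finset.mem_union, mem_yy, mem_yy] at he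
        have heT := Finset.mem_of_mem_erase he.1
        rw [Finset.mem_union, Finset.mem_filter, Finset.mem_filter]
        rcases he.2 with h5 | h5
        · exact Or.inl ⟨heT, h5.1⟩
        · exact Or.inr ⟨heT, h5.1⟩
      have h6 := (Finset.card_le_card hsub).trans (Finset.card_union_le _ _)
      change _ ≤ I.deg T a + I.deg T a'.1 at h6
      omega
  have h5 : Fintype.card (I.Idx e₀) ≤ good.card + bad.card := by
    rw [← Finset.card_univ]
    exact (Finset.card_le_card h4).trans (Finset.card_union_le _ _)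
  omega

end Inc

namespace Bias

variable (b : Bias) {E : Type*} [Fintype E] [DecidableEq E]

/-- Sum over the sets containing `e`. -/
lemma ex_del_sq (e : E) (f : (E → Bool) → ℝ) :
    b.ex (fun x => b.del e f x ^ 2) =
      ∑ T ∈ univ.filter (fun T : Finset E => e ∈ T), b.hat f T ^ 2 := by
  rw [parseval_sq]
  simp_rw [hat_del]
  have h1 : ∑ S : Finset E, (if e ∈ S then (0 : ℝ) else b.hat f (insert e S)) ^ 2 =
      ∑ S ∈ univ.filter (fun S : Finset E => e ∉ S), b.hat f (insert e S) ^ 2 := by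
    rw [Finset.sum_filter]
    refine Finset.sum_congr rfl (fun S _ => ?_)
    by_cases h : e ∈ S <;> simp [h]
  rw [h1]
  refine Finset.sum_nbij' (insert e) (fun T => T.erase e) ?_ ?_ ?_ ?_ ?_
  · intro S _
    simp
  · intro T _
    simp
  · intro S hS
    exact Finset.erase_insert (Finset.mem_filter.mp hS).2
  · intro T hT
    exact Finset.insert_erase (Finset.mem_filter.mp hT).2
  · intro S _
    rfl

lemma sum_card_hat (f : (E → Bool) → ℝ) :
    ∑ T : Finset E, (T.card : ℝ) * b.hat f T ^ 2 =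
      ∑ e, b.ex (fun x => b.del e f x ^ 2) := by
  simp_rw [ex_del_sq, Finset.sum_filter]
  rw [Finset.sum_comm]
  refine Finset.sum_congr rfl (fun T _ => ?_)
  rw [← Finset.sum_filter, Finset.sum_const, nsmul_eq_mul, Finset.filter_mem_eq_inter,
    Finset.univ_inter]

/-- the variance in Fourier terms -/
lemma variance_eq (f : (E → Bool) → ℝ) :
    b.ex (fun x => f x ^ 2) - b.ex f ^ 2 =
      ∑ T ∈ univ.filter (fun T : Finset E => T ≠ ∅), b.hat f T ^ 2 := by
  rw [parseval_sq, ex_eq_hat_empty]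
  have h := Finset.sum_filter_add_sum_filter_not (univ : Finset (Finset E)) (fun T => T = ∅)
    (fun T => b.hat f T ^ 2)
  have h2 : univ.filter (fun T : Finset E => T = ∅) = {∅} := by
    ext T
    simp
  rw [h2, Finset.sum_singleton] at h
  linarith

lemma hat_G_erase {e₀ : E} {T : Finset E} (he : e₀ ∈ T) {η : ℝ} (hη : η < 1)
    (f : (E → Bool) → ℝ) :
    b.hat (b.del e₀ (b.T univ (Real.sqrt (1 - η)) f)) (T.erase e₀) ^ 2 =
      (1 - η) ^ T.card * b.hat f T ^ 2 := by
  rw [hat_del_T, hat_del, if_neg (Finset.notMem_erase e₀ T), Finset.insert_erase he,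
    Finset.card_erase_add_one he, mul_pow, ← pow_mul, mul_comm T.card 2, pow_mul,
    Real.sq_sqrt (by linarith)]

end Bias

open Inc in
/-- The abstract variance inequality. -/
theorem var_bound {V E : Type*} [Fintype V] [DecidableEq V] [Fintype E] [DecidableEq E] {r : ℕ}
    (I : Inc V E r) (hr : 2 ≤ r) (b : Bias) (f : (E → Bool) → ℝ)
    (hf : ∀ x, f x = 0 ∨ f x = 1) (hsym : ∀ σ x, f (x ∘ I.act σ) = f x)
    {d : ℕ} (hd : 1 ≤ d) {η θ lam : ℝ} (hη0 : 0 < η) (hη1 : η < 1) (hθ0 : 0 < θ) (hθ1 : θ ≤ 1)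
    (hlam : 0 < lam)
    (hN : (r : ℝ) ≤ θ ^ 4 * η * ((Fintype.card V - r : ℕ) : ℝ))
    (h1 : ∀ t : ℕ, d ^ r ≤ (r * t) ^ (r - 1) → 1 ≤ η * t)
    (h2 : ∀ t : ℕ, (Fintype.card V - r) * d < 2 * (r * t) → 1 ≤ η * t) :
    b.ex (fun x => f x ^ 2) - b.ex f ^ 2 ≤
      (∑ e, b.ex (fun x => b.del e f x ^ 2)) *
        (2 * η + 4 * r * (2 * lam + 4 / (lam * b.s) * (2 / b.s) ^ (2 * (d - 1)) * θ)) := by
  classical
  set ε := 2 * lam + 4 / (lam * b.s) * (2 / b.s) ^ (2 * (d - 1)) * θ with hε
  set A₀ : E → ℝ := fun e => b.ex (fun x => b.del e f x ^ 2) with hA₀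
  have hA₀0 : ∀ e, 0 ≤ A₀ e := fun e => b.ex_nonneg (fun _ => sq_nonneg _)
  set Var := b.ex (fun x => f x ^ 2) - b.ex f ^ 2 with hVar
  set N := Fintype.card V - r with hNdef
  set w : Finset E → ℝ := fun T => (1 - η) ^ T.card * b.hat f T ^ 2 with hw
  have hηq : 0 ≤ 1 - η := by linarith
  have hw0 : ∀ T, 0 ≤ w T := fun T => by
    simp only [hw]
    positivity
  set NE := univ.filter (fun T : Finset E => T ≠ ∅) with hNE
  have hVarsum : Var = ∑ T ∈ NE, b.hat f T ^ 2 := b.variance_eq f
  -- covered sets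
  set Cov : Finset E → E → V → Prop := fun T e₀ a =>
    e₀ ∈ T ∧ I.deg T a + 1 ≤ d ∧ 2 * (r * T.card) ≤ N * d with hCov
  -- per pair bound
  have hpair : ∀ (e₀ : E) (a : V), a ∈ I.inc e₀ →
      ∑ T ∈ univ.filter (fun T => Cov T e₀ a), w T ≤ 2 * A₀ e₀ * ε := by
    intro e₀ a ha
    have hcard := I.card_Idx e₀
    have hN' : (r : ℝ) ≤ θ ^ 4 * η * (Fintype.card (I.Idx e₀) : ℝ) := by
      rw [hcard]
      exact hN
    set 𝓣 := univ.filter (fun T => Cov T e₀ a) with h𝓣
    set 𝓢 := 𝓣.image (fun T => T.erase e₀) with h𝓢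
    have hmem : ∀ T ∈ 𝓣, e₀ ∈ T ∧ I.deg T a + 1 ≤ d ∧ 2 * (r * T.card) ≤ N * d :=
      fun T hT => (Finset.mem_filter.mp hT).2
    have hinjon : Set.InjOn (fun T : Finset E => T.erase e₀) (𝓣 : Set (Finset E)) := by
      intro T hT T' hT' heq
      simp only at heq
      rw [← Finset.insert_erase (hmem T hT).1, ← Finset.insert_erase (hmem T' hT').1, heq]
    have hcond : ∀ S ∈ 𝓢, (Fintype.card (I.Idx e₀) : ℝ) ≤
        2 * ((univ.filter (fun a' : I.Idx e₀ =>
          (S ∩ (I.yy a a'.1 ∪ I.yy a'.1 a)).card ≤ 2 * (d - 1))).card : ℝ) := by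
      intro S hS
      obtain ⟨T, hT, rfl⟩ := Finset.mem_image.mp hS
      have hT' := hmem T hT
      have := I.half_good e₀ a hd hT'.2.1 (by rw [hcard]; exact hT'.2.2)
      exact_mod_cast this
    have hclass := b.star_class f hf e₀ (fun a' : I.Idx e₀ => I.swp a a'.1)
      (fun a' => I.yy a a'.1) (fun a' => I.yy a'.1 a)
      (fun a' => I.map_yy' a a'.1) (fun a' => I.map_yy a a'.1)
      (fun a' e he => I.swp_fix a a'.1 e he)
      (fun a' x => hsym _ x)
      (I.swp_inj ha) r hr (fun e => I.cov e₀ a e)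
      hη0 hη1 hθ0 hθ1 hlam hN' (2 * (d - 1)) 𝓢 hcond
    rw [Finset.sum_image hinjon] at hclass
    refine le_trans (le_of_eq ?_) hclass
    refine Finset.sum_congr rfl (fun T hT => ?_)
    exact (b.hat_G_erase (hmem T hT).1 hη1 f).symm
  -- sum of all covered
  set 𝓒 := NE.filter (fun T => ∃ e₀ ∈ T, ∃ a ∈ I.inc e₀, I.deg T a + 1 ≤ d ∧
    2 * (r * T.card) ≤ N * d) with h𝓒
  have hε0 : 0 ≤ ε := by
    have := b.s_pos
    positivity
  have hcovered : ∑ T ∈ 𝓒, w T ≤ 2 * r * ε * ∑ e, A₀ e := by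
    have h3 : ∑ T ∈ 𝓒, w T ≤ ∑ e₀, ∑ a ∈ I.inc e₀,
        ∑ T ∈ univ.filter (fun T => Cov T e₀ a), w T := by
      have h4 : ∀ T ∈ 𝓒, w T ≤ ∑ e₀, ∑ a ∈ I.inc e₀,
          (if Cov T e₀ a then w T else 0) := by
        intro T hT
        obtain ⟨e₀, he₀, a, ha, h5, h6⟩ := (Finset.mem_filter.mp hT).2
        have h7 : w T = if Cov T e₀ a then w T else 0 := by
          rw [if_pos ⟨he₀, h5, h6⟩]
        have h8 : (if Cov T e₀ a then w T else 0) ≤ ∑ a ∈ I.inc e₀,
            (if Cov T e₀ a then w T else 0) := by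
          exact Finset.single_le_sum (f := fun a => if Cov T e₀ a then w T else 0)
            (fun a' _ => by
              show 0 ≤ if Cov T e₀ a' then w T else 0
              split_ifs
              · exact hw0 T
              · exact le_rfl) ha
        have h9 : ∑ a ∈ I.inc e₀, (if Cov T e₀ a then w T else 0) ≤
            ∑ e₀, ∑ a ∈ I.inc e₀, (if Cov T e₀ a then w T else 0) := by
          exact Finset.single_le_sum
            (f := fun e₀ => ∑ a ∈ I.inc e₀, (if Cov T e₀ a then w T else 0))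
            (fun e _ => Finset.sum_nonneg (fun a' _ => by
              split_ifs
              · exact hw0 T
              · exact le_rfl)) (Finset.mem_univ e₀)
        linarith
      have h10 : ∑ T ∈ 𝓒, w T ≤ ∑ T : Finset E, ∑ e₀, ∑ a ∈ I.inc e₀,
          (if Cov T e₀ a then w T else 0) := by
        refine (Finset.sum_le_sum h4).trans ?_
        refine Finset.sum_le_sum_of_subset_of_nonneg (Finset.subset_univ _) (fun T _ _ => ?_)
        exact Finset.sum_nonneg (fun e _ => Finset.sum_nonneg (fun a' _ => by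
              split_ifs
              · exact hw0 T
              · exact le_rfl))
      refine h10.trans (le_of_eq ?_)
      rw [Finset.sum_comm]
      refine Finset.sum_congr rfl (fun e₀ _ => ?_)
      rw [Finset.sum_comm]
      refine Finset.sum_congr rfl (fun a _ => ?_)
      rw [Finset.sum_filter]
    refine h3.trans ?_
    calc ∑ e₀, ∑ a ∈ I.inc e₀, ∑ T ∈ univ.filter (fun T => Cov T e₀ a), w T
        ≤ ∑ e₀, ∑ a ∈ I.inc e₀, (2 * A₀ e₀ * ε) :=
          Finset.sum_le_sum (fun e₀ _ => Finset.sum_le_sum (fun a ha => hpair e₀ a ha))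
      _ = 2 * r * ε * ∑ e, A₀ e := by
          rw [Finset.mul_sum]
          refine Finset.sum_congr rfl (fun e _ => ?_)
          rw [Finset.sum_const, I.card_inc, nsmul_eq_mul]
          ring
  -- uncovered sets have small weight
  have huncov : ∀ T ∈ NE, T ∉ 𝓒 → 1 ≤ η * T.card := by
    intro T hT hnot
    have hTne : T ≠ ∅ := (Finset.mem_filter.mp hT).2
    by_cases h3 : 2 * (r * T.card) ≤ N * d
    · apply h1
      apply I.pow_le_of_min_deg T (Finset.nonempty_iff_ne_empty.mpr hTne) (by omega)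
      intro e he a ha
      by_contra hcon
      push Not at hcon
      apply hnot
      exact Finset.mem_filter.mpr ⟨hT, e, he, a, ha, by omega, h3⟩
    · push Not at h3
      exact h2 _ h3
  have hsmall : ∀ T ∈ NE, T ∉ 𝓒 → (1 - η) ^ T.card ≤ 1 / 2 := by
    intro T hT hnot
    have h3 := huncov T hT hnot
    have h4 : (1 - η) ^ T.card * (1 + T.card * η) ≤ 1 := by
      have h5 : 1 + (T.card : ℝ) * η ≤ (1 + η) ^ T.card := one_add_mul_le_pow (a := η) (by linarith) _
      have h6 : (1 - η) ^ T.card * (1 + η) ^ T.card ≤ 1 := by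
        rw [← mul_pow]
        apply pow_le_one₀
        · nlinarith
        · nlinarith
      have h7 : 0 ≤ (1 - η) ^ T.card := pow_nonneg hηq _
      nlinarith [mul_le_mul_of_nonneg_left h5 h7]
    have h7 : 0 ≤ (1 - η) ^ T.card := pow_nonneg hηq _
    nlinarith
  -- first step of the variance
  have hstep1 : Var ≤ η * ∑ e, A₀ e + ∑ T ∈ NE, w T := by
    have h3 : ∀ T ∈ NE, b.hat f T ^ 2 ≤ η * ((T.card : ℝ) * b.hat f T ^ 2) + w T := by
      intro T _
      have h4 : 1 + (T.card : ℝ) * (-η) ≤ (1 + (-η)) ^ T.card :=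
        one_add_mul_le_pow (a := -η) (by linarith) _
      have h5 : 1 + (-η) = 1 - η := by ring
      rw [h5] at h4
      simp only [hw]
      nlinarith [sq_nonneg (b.hat f T), mul_le_mul_of_nonneg_right h4 (sq_nonneg (b.hat f T))]
    rw [hVarsum]
    refine (Finset.sum_le_sum h3).trans ?_
    rw [Finset.sum_add_distrib, ← Finset.mul_sum]
    have h6 : ∑ T ∈ NE, (T.card : ℝ) * b.hat f T ^ 2 ≤ ∑ e, A₀ e := by
      rw [← b.sum_card_hat f]
      exact Finset.sum_le_sum_of_subset_of_nonneg (Finset.filter_subset _ _)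
        (fun T _ _ => by positivity)
    have h7 := mul_le_mul_of_nonneg_left h6 hη0.le
    linarith
  have hstep2 : ∑ T ∈ NE, w T ≤ ∑ T ∈ 𝓒, w T + Var / 2 := by
    have h3 := Finset.sum_filter_add_sum_filter_not NE (fun T => T ∈ 𝓒) w
    have h4 : NE.filter (fun T => T ∈ 𝓒) = 𝓒 := by
      ext T
      simp only [Finset.mem_filter]
      constructor
      · exact fun h => h.2
      · exact fun h => ⟨(Finset.mem_filter.mp h).1, h⟩
    rw [h4] at h3
    rw [← h3]
    have h5 : ∑ T ∈ NE.filter (fun T => T ∉ 𝓒), w T ≤ Var / 2 := by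
      rw [hVarsum, Finset.sum_div]
      calc ∑ T ∈ NE.filter (fun T => T ∉ 𝓒), w T
          ≤ ∑ T ∈ NE.filter (fun T => T ∉ 𝓒), b.hat f T ^ 2 / 2 := by
            refine Finset.sum_le_sum (fun T hT => ?_)
            have hT' := Finset.mem_filter.mp hT
            have h6 := hsmall T hT'.1 hT'.2
            simp only [hw]
            nlinarith [sq_nonneg (b.hat f T), mul_le_mul_of_nonneg_right h6 (sq_nonneg (b.hat f T))]
        _ ≤ ∑ T ∈ NE, b.hat f T ^ 2 / 2 :=
            Finset.sum_le_sum_of_subset_of_nonneg (Finset.filter_subset _ _)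
              (fun T _ _ => by positivity)
    linarith
  have hfinal : Var ≤ (∑ e, A₀ e) * (2 * η + 4 * r * ε) := by
    have h3 : Var ≤ η * ∑ e, A₀ e + 2 * r * ε * ∑ e, A₀ e + Var / 2 := by linarith
    nlinarith
  exact hfinal

end Crest.Agent.BC
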