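import Crest.Agent.BiasedCube.Basic

/-!
# Pointwise gradient bound for the noise operator and elementary facts on `del e (T f)`
-/

set_option autoImplicit false
set_option linter.unusedSectionVars false
set_option linter.unusedVariables false
set_option linter.unusedSimpArgs false
set_option linter.deprecated false

open Finset

namespace Crest.Agent.BC

theorem bessel_generic {Ω ι : Type*} [Fintype Ω] [Fintype ι] [DecidableEq ι] (ν : Ω → ℝ)
    (hν : ∀ w, 0 ≤ ν w) (κ : ι → Ω → ℝ) (f : Ω → ℝ) {V : ℝ} (hV : 0 < V)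
    (horth : ∀ e e', e ≠ e' → ∑ w, ν w * (κ e w * κ e' w) = 0)
    (hnorm : ∀ e, ∑ w, ν w * κ e w ^ 2 ≤ V) :
    ∑ e, (∑ w, ν w * (f w * κ e w)) ^ 2 ≤ V * ∑ w, ν w * f w ^ 2 := by
  set c : ι → ℝ := fun e => ∑ w, ν w * (f w * κ e w) with hc
  set C := ∑ e, c e ^ 2 with hC
  have hnn : 0 ≤ ∑ w, ν w * (f w - (1 / V) * ∑ e, c e * κ e w) ^ 2 :=
    Finset.sum_nonneg (fun w _ => mul_nonneg (hν w) (sq_nonneg _))
  have h1 : ∑ w, ν w * (f w * ∑ e, c e * κ e w) = C := by
    simp_rw [Finset.mul_sum]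
    rw [Finset.sum_comm]
    rw [hC]
    refine Finset.sum_congr rfl (fun e _ => ?_)
    rw [sq]
    conv_rhs => rw [hc]
    simp only []
    rw [Finset.mul_sum]
    refine Finset.sum_congr rfl (fun w _ => ?_)
    ring
  have h2 : ∑ w, ν w * (∑ e, c e * κ e w) ^ 2 = ∑ e, c e ^ 2 * ∑ w, ν w * κ e w ^ 2 := by
    have h3 : ∀ w, ν w * (∑ e, c e * κ e w) ^ 2 =
        ∑ e, ∑ e', c e * c e' * (ν w * (κ e w * κ e' w)) := by
      intro w
      rw [sq, Finset.sum_mul_sum, Finset.mul_sum]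
      refine Finset.sum_congr rfl (fun e _ => ?_)
      rw [Finset.mul_sum]
      refine Finset.sum_congr rfl (fun e' _ => ?_)
      ring
    simp_rw [h3]
    rw [Finset.sum_comm]
    refine Finset.sum_congr rfl (fun e _ => ?_)
    rw [Finset.sum_comm]
    rw [Finset.sum_eq_single e]
    · rw [← Finset.mul_sum, sq (c e)]
      congr 1
      refine Finset.sum_congr rfl (fun w _ => ?_)
      ring
    · intro e' _ hne
      rw [← Finset.mul_sum, horth e e' (Ne.symm hne), mul_zero]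
    · intro h
      exact absurd (Finset.mem_univ e) h
  have h4 : ∑ e, c e ^ 2 * ∑ w, ν w * κ e w ^ 2 ≤ V * C := by
    rw [hC, Finset.mul_sum]
    refine Finset.sum_le_sum (fun e _ => ?_)
    rw [mul_comm V]
    exact mul_le_mul_of_nonneg_left (hnorm e) (sq_nonneg _)
  have hexp : ∑ w, ν w * (f w - (1 / V) * ∑ e, c e * κ e w) ^ 2 =
      ∑ w, ν w * f w ^ 2 - (2 / V) * C + (1 / V ^ 2) * ∑ w, ν w * (∑ e, c e * κ e w) ^ 2 := by
    rw [← h1, Finset.mul_sum, Finset.mul_sum, ← Finset.sum_sub_distrib, ← Finset.sum_add_distrib]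
    refine Finset.sum_congr rfl (fun w _ => ?_)
    ring
  rw [hexp, h2] at hnn
  have h5 : (1 / V ^ 2) * ∑ e, c e ^ 2 * ∑ w, ν w * κ e w ^ 2 ≤ (1 / V ^ 2) * (V * C) :=
    mul_le_mul_of_nonneg_left h4 (by positivity)
  have h6 : (1 / V ^ 2) * (V * C) = C / V := by
    field_simp
  have h7 : (2 / V) * C = 2 * (C / V) := by ring
  rw [h6] at h5
  have h8 : C / V ≤ ∑ w, ν w * f w ^ 2 := by linarith
  rw [div_le_iff₀ hV] at h8
  linarith

namespace Bias

variable (b : Bias) {E : Type*} [Fintype E] [DecidableEq E]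

/-- tilted weight of a coin -/
noncomputable def nn (ρ : ℝ) (a c : Bool) : ℝ := b.m c * (1 + ρ * b.chi a * b.chi c)

/-- the orthogonal family in the tilted measure -/
noncomputable def kap (ρ : ℝ) (a c : Bool) : ℝ := ρ * b.chi c / (1 + ρ * b.chi a * b.chi c)

lemma one_add_ge {ρ : ℝ} (h0 : 0 ≤ ρ) (h1 : ρ < 1) (a c : Bool) :
    1 - ρ ≤ 1 + ρ * b.chi a * b.chi c := by
  have := b.chi_mul_ge a c
  nlinarith

lemma one_add_pos {ρ : ℝ} (h0 : 0 ≤ ρ) (h1 : ρ < 1) (a c : Bool) :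
    0 < 1 + ρ * b.chi a * b.chi c := by
  have := b.one_add_ge h0 h1 a c
  linarith

lemma nn_sum (ρ : ℝ) (a : Bool) : b.nn ρ a true + b.nn ρ a false = 1 := by
  unfold nn
  have h1 := b.chi_mean
  have h2 := b.m_add
  linear_combination h2 + (ρ * b.chi a) * h1

lemma nn_nonneg {ρ : ℝ} (h0 : 0 ≤ ρ) (h1 : ρ < 1) (a c : Bool) : 0 ≤ b.nn ρ a c :=
  mul_nonneg (b.m_pos c).le (b.one_add_pos h0 h1 a c).le

lemma nn_kap {ρ : ℝ} (h0 : 0 ≤ ρ) (h1 : ρ < 1) (a c : Bool) :
    b.nn ρ a c * b.kap ρ a c = ρ * (b.m c * b.chi c) := by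
  unfold nn kap
  have := (b.one_add_pos h0 h1 a c).ne'
  field_simp

lemma nn_kap_sum {ρ : ℝ} (h0 : 0 ≤ ρ) (h1 : ρ < 1) (a : Bool) :
    b.nn ρ a true * b.kap ρ a true + b.nn ρ a false * b.kap ρ a false = 0 := by
  rw [b.nn_kap h0 h1, b.nn_kap h0 h1]
  have h := b.chi_mean
  linear_combination ρ * h

lemma nn_kap_sq {ρ : ℝ} (h0 : 0 ≤ ρ) (h1 : ρ < 1) (a : Bool) :
    b.nn ρ a true * b.kap ρ a true ^ 2 + b.nn ρ a false * b.kap ρ a false ^ 2 ≤ 1 / (1 - ρ) := by
  have hρ : 0 < 1 - ρ := by linarith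
  have hterm : ∀ c, b.nn ρ a c * b.kap ρ a c ^ 2 ≤ ρ ^ 2 * (b.m c * b.chi c ^ 2) / (1 - ρ) := by
    intro c
    have hpos := b.one_add_pos h0 h1 a c
    have hge := b.one_add_ge h0 h1 a c
    have heq : b.nn ρ a c * b.kap ρ a c ^ 2 =
        ρ ^ 2 * (b.m c * b.chi c ^ 2) / (1 + ρ * b.chi a * b.chi c) := by
      unfold nn kap
      field_simp
    rw [heq]
    apply div_le_div_of_nonneg_left _ hρ hge
    have := (b.m_pos c).le
    positivity
  have h2 := b.chi_sq_mean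
  have hsum : ρ ^ 2 * (b.m true * b.chi true ^ 2) / (1 - ρ) +
      ρ ^ 2 * (b.m false * b.chi false ^ 2) / (1 - ρ) = ρ ^ 2 / (1 - ρ) := by
    rw [← add_div, ← mul_add, h2, mul_one]
  have h3 : ρ ^ 2 / (1 - ρ) ≤ 1 / (1 - ρ) := by
    apply div_le_div_of_nonneg_right _ hρ.le
    nlinarith
  linarith [hterm true, hterm false]

lemma wt_mul_ker (ρ : ℝ) (x w : E → Bool) :
    b.wt w * b.ker univ ρ x w = ∏ e, b.nn ρ (x e) (w e) := by
  unfold wt ker nn
  rw [← Finset.prod_mul_distrib]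

lemma T_univ_apply (ρ : ℝ) (g : (E → Bool) → ℝ) (x : E → Bool) :
    b.T univ ρ g x = ∑ w, b.wt w * b.ker univ ρ x w * g w := by
  unfold T
  simp only [Finset.piecewise_univ]

lemma sum_nn (ρ : ℝ) (x : E → Bool) : ∑ w : E → Bool, b.wt w * b.ker univ ρ x w = 1 := by
  simp_rw [wt_mul_ker]
  rw [sum_prod_bool (fun e c => b.nn ρ (x e) c)]
  simp [nn_sum]

/-- derivative of the noise as a correlation -/
lemma del_T_apply {ρ : ℝ} (h0 : 0 ≤ ρ) (h1 : ρ < 1) (e : E) (f : (E → Bool) → ℝ) (x : E → Bool) :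
    b.del e (b.T univ ρ f) x =
      ∑ w, (b.wt w * b.ker univ ρ x w) * (f w * b.kap ρ (x e) (w e)) := by
  unfold del
  rw [T_univ_apply, T_univ_apply, ← Finset.sum_sub_distrib, Finset.mul_sum]
  refine Finset.sum_congr rfl (fun w _ => ?_)
  set P := ∏ e' ∈ univ.erase e, (1 + ρ * b.chi (x e') * b.chi (w e')) with hP
  have hker : ∀ c, b.ker univ ρ (Function.update x e c) w =
      (1 + ρ * b.chi c * b.chi (w e)) * P := by
    intro c
    unfold ker
    rw [← Finset.mul_prod_erase univ _ (Finset.mem_univ e)]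
    simp only [Function.update_self]
    congr 1
    refine Finset.prod_congr rfl (fun e' he' => ?_)
    rw [Function.update_of_ne (Finset.ne_of_mem_erase he')]
  have hker' : b.ker univ ρ x w = (1 + ρ * b.chi (x e) * b.chi (w e)) * P := by
    unfold ker
    rw [← Finset.mul_prod_erase univ _ (Finset.mem_univ e)]
  rw [hker, hker, hker']
  unfold kap
  have hpos := (b.one_add_pos h0 h1 (x e) (w e)).ne'
  have h2 := b.s_chi_sub
  have h3 : (b.wt w * ((1 + ρ * b.chi (x e) * b.chi (w e)) * P)) *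
      (f w * (ρ * b.chi (w e) / (1 + ρ * b.chi (x e) * b.chi (w e)))) =
      b.wt w * P * f w * (ρ * b.chi (w e)) := by
    field_simp
  rw [h3]
  linear_combination (ρ * b.chi (w e) * P * f w * b.wt w) * h2

/-- the pointwise gradient bound (reverse Poincaré inequality) -/
theorem grad_bound {ρ : ℝ} (h0 : 0 ≤ ρ) (h1 : ρ < 1) (f : (E → Bool) → ℝ)
    (hf : ∀ x, f x ^ 2 ≤ 1) (x : E → Bool) :
    ∑ e, b.del e (b.T univ ρ f) x ^ 2 ≤ 1 / (1 - ρ) := by
  have hρ : 0 < 1 - ρ := by linarith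
  simp_rw [b.del_T_apply h0 h1]
  set ν : (E → Bool) → ℝ := fun w => b.wt w * b.ker univ ρ x w with hν
  have hν0 : ∀ w, 0 ≤ ν w := fun w =>
    mul_nonneg (b.wt_pos w).le (b.ker_nonneg _ h0 h1.le _ _)
  have horth : ∀ e e', e ≠ e' →
      ∑ w, ν w * (b.kap ρ (x e) (w e) * b.kap ρ (x e') (w e')) = 0 := by
    intro e e' hne
    have hprod : ∀ w : E → Bool, ν w * (b.kap ρ (x e) (w e) * b.kap ρ (x e') (w e')) =
        ∏ e'', (b.nn ρ (x e'') (w e'') *
          (if e'' = e then b.kap ρ (x e'') (w e'') else 1) *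
          (if e'' = e' then b.kap ρ (x e'') (w e'') else 1)) := by
      intro w
      simp only [hν]
      rw [wt_mul_ker, Finset.prod_mul_distrib, Finset.prod_mul_distrib,
        Finset.prod_ite_eq' univ e, Finset.prod_ite_eq' univ e']
      simp only [Finset.mem_univ, if_true]
      ring
    simp_rw [hprod]
    rw [sum_prod_bool (fun e'' c => b.nn ρ (x e'') c *
          (if e'' = e then b.kap ρ (x e'') c else 1) *
          (if e'' = e' then b.kap ρ (x e'') c else 1))]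
    refine Finset.prod_eq_zero (Finset.mem_univ e) ?_
    simp only [if_true, hne, if_false, mul_one]
    exact b.nn_kap_sum h0 h1 _
  have hnorm : ∀ e, ∑ w, ν w * b.kap ρ (x e) (w e) ^ 2 ≤ 1 / (1 - ρ) := by
    intro e
    have hprod : ∀ w : E → Bool, ν w * b.kap ρ (x e) (w e) ^ 2 =
        ∏ e'', (b.nn ρ (x e'') (w e'') *
          (if e'' = e then b.kap ρ (x e'') (w e'') ^ 2 else 1)) := by
      intro w
      simp only [hν]
      rw [wt_mul_ker, Finset.prod_mul_distrib, Finset.prod_ite_eq' univ e]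
      simp only [Finset.mem_univ, if_true]
    simp_rw [hprod]
    rw [sum_prod_bool (fun e'' c => b.nn ρ (x e'') c *
          (if e'' = e then b.kap ρ (x e'') c ^ 2 else 1))]
    rw [Finset.prod_eq_single e]
    · simp only [if_true]
      exact b.nn_kap_sq h0 h1 _
    · intro e' _ hne
      simp only [hne, if_false, mul_one]
      exact b.nn_sum _ _
    · intro h
      exact absurd (Finset.mem_univ e) h
  have hB := bessel_generic ν hν0 (fun e w => b.kap ρ (x e) (w e)) f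
    (by positivity : 0 < 1 / (1 - ρ)) horth hnorm
  refine hB.trans ?_
  have h3 : ∑ w, ν w * f w ^ 2 ≤ 1 := by
    calc ∑ w, ν w * f w ^ 2 ≤ ∑ w, ν w * 1 :=
          Finset.sum_le_sum (fun w _ => mul_le_mul_of_nonneg_left (hf w) (hν0 w))
      _ = 1 := by
          simp only [mul_one, hν]
          exact b.sum_nn ρ x
  calc 1 / (1 - ρ) * ∑ w, ν w * f w ^ 2 ≤ 1 / (1 - ρ) * 1 :=
        mul_le_mul_of_nonneg_left h3 (by positivity)
    _ = 1 / (1 - ρ) := mul_one _

lemma T_const (Y : Finset E) (ρ c : ℝ) (x : E → Bool) : b.T Y ρ (fun _ => c) x = c := by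
  have h := b.T_cha Y ∅ ρ x
  have h2 : b.cha (E := E) ∅ = fun _ => 1 := funext (b.cha_empty)
  rw [h2] at h
  simp only [Finset.empty_inter, Finset.card_empty, pow_zero, one_mul] at h
  have h3 : (fun _ : E → Bool => c) = fun z => c * (fun _ => (1:ℝ)) z := by
    funext z; simp
  rw [h3, T_mul_const, h]
  simp

lemma T_mono (Y : Finset E) {ρ : ℝ} (h0 : 0 ≤ ρ) (h1 : ρ ≤ 1) {g g' : (E → Bool) → ℝ}
    (H : ∀ x, g x ≤ g' x) (x : E → Bool) : b.T Y ρ g x ≤ b.T Y ρ g' x := by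
  unfold T
  refine Finset.sum_le_sum (fun w _ => mul_le_mul_of_nonneg_left (H _) ?_)
  exact mul_nonneg (b.wt_pos w).le (b.ker_nonneg _ h0 h1 _ _)

lemma T_abs_le (Y : Finset E) {ρ : ℝ} (h0 : 0 ≤ ρ) (h1 : ρ ≤ 1) (g : (E → Bool) → ℝ)
    (x : E → Bool) : |b.T Y ρ g x| ≤ b.T Y ρ (fun z => |g z|) x := by
  rw [abs_le]
  constructor
  · have h2 := b.T_mono Y h0 h1 (g := fun z => - |g z|) (g' := g) (fun z => neg_abs_le _) x
    have h3 : (fun z => - |g z|) = fun z => (-1) * |g z| := by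
      funext z; ring
    rw [h3, T_mul_const] at h2
    linarith
  · exact b.T_mono Y h0 h1 (fun z => le_abs_self _) x

lemma T_unit {ρ : ℝ} (h0 : 0 ≤ ρ) (h1 : ρ ≤ 1) (f : (E → Bool) → ℝ)
    (hf : ∀ x, 0 ≤ f x ∧ f x ≤ 1) (Y : Finset E) (x : E → Bool) :
    0 ≤ b.T Y ρ f x ∧ b.T Y ρ f x ≤ 1 := by
  constructor
  · have := b.T_mono Y h0 h1 (g := fun _ => 0) (g' := f) (fun z => (hf z).1) x
    rwa [T_const] at this
  · have := b.T_mono Y h0 h1 (g := f) (g' := fun _ => 1) (fun z => (hf z).2) x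
    rwa [T_const] at this

lemma abs_del_le (e : E) {u : (E → Bool) → ℝ} (hu : ∀ x, 0 ≤ u x ∧ u x ≤ 1) (x : E → Bool) :
    |b.del e u x| ≤ b.s := by
  unfold del
  rw [abs_mul, abs_of_pos b.s_pos]
  have h1 := hu (Function.update x e true)
  have h2 := hu (Function.update x e false)
  have h3 : |u (Function.update x e true) - u (Function.update x e false)| ≤ 1 := by
    rw [abs_le]
    constructor <;> linarith [h1.1, h1.2, h2.1, h2.2]
  nlinarith [b.s_pos]

/-- Commuting the derivative and the noise -/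
lemma del_T (ρ : ℝ) (e : E) (f : (E → Bool) → ℝ) :
    b.del e (b.T univ ρ f) = fun x => ρ * b.T univ ρ (b.del e f) x := by
  apply b.hat_inj
  intro S
  rw [hat_mul_const, hat_T, hat_del, hat_del]
  by_cases he : e ∈ S
  · simp [he]
  · simp only [he, if_false, hat_T, Finset.inter_univ]
    rw [Finset.card_insert_of_notMem he]
    ring

lemma hat_del_T (ρ : ℝ) (e : E) (f : (E → Bool) → ℝ) (S : Finset E) :
    b.hat (b.del e (b.T univ ρ f)) S = ρ ^ (S.card + 1) * b.hat (b.del e f) S := by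
  rw [del_T, hat_mul_const, hat_T, Finset.inter_univ]
  ring

lemma ex_abs_del_T {ρ : ℝ} (h0 : 0 ≤ ρ) (h1 : ρ ≤ 1) (e : E) (f : (E → Bool) → ℝ) :
    b.ex (fun x => |b.del e (b.T univ ρ f) x|) ≤ b.ex (fun x => |b.del e f x|) := by
  rw [del_T]
  calc b.ex (fun x => |ρ * b.T univ ρ (b.del e f) x|)
      ≤ b.ex (fun x => b.T univ ρ (fun z => |b.del e f z|) x) := by
        refine b.ex_mono (fun x => ?_)
        rw [abs_mul, abs_of_nonneg h0]
        have h2 := b.T_abs_le univ h0 h1 (b.del e f) x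
        have h3 := abs_nonneg (b.T univ ρ (b.del e f) x)
        nlinarith
    _ = b.ex (fun x => |b.del e f x|) := b.ex_T _ _ _

/-- For a 0-1 valued function the square of the derivative is `s` times its absolute value. -/
lemma del_sq_boolean (e : E) {f : (E → Bool) → ℝ} (hf : ∀ x, f x = 0 ∨ f x = 1) (x : E → Bool) :
    b.del e f x ^ 2 = b.s * |b.del e f x| := by
  unfold del
  rw [abs_mul, abs_of_pos b.s_pos]
  rcases hf (Function.update x e true) with h1 | h1 <;>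
    rcases hf (Function.update x e false) with h2 | h2 <;> rw [h1, h2] <;> norm_num <;> ring

lemma ex_del_T_sq_le {ρ : ℝ} (h0 : 0 ≤ ρ) (h1 : ρ ≤ 1) (e : E) (f : (E → Bool) → ℝ) :
    b.ex (fun x => b.del e (b.T univ ρ f) x ^ 2) ≤ b.ex (fun x => b.del e f x ^ 2) := by
  rw [parseval_sq, parseval_sq]
  refine Finset.sum_le_sum (fun S _ => ?_)
  rw [hat_del_T, mul_pow]
  have h2 : (ρ ^ (S.card + 1)) ^ 2 ≤ 1 := by
    apply pow_le_one₀ (by positivity)
    exact pow_le_one₀ h0 h1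
  nlinarith [sq_nonneg (b.hat (b.del e f) S)]

/-- Bernoulli-type bound `k (1-η)^k ≤ 1/η`. -/
lemma mul_one_sub_pow_le {η : ℝ} (h0 : 0 < η) (h1 : η < 1) (k : ℕ) :
    (k : ℝ) * (1 - η) ^ k ≤ 1 / η := by
  have h2 : (1 - η) ^ k * (1 + k * η) ≤ 1 := by
    have h3 : 1 + (k : ℝ) * η ≤ (1 + η) ^ k := one_add_mul_le_pow (a := η) (by linarith) k
    have h4 : (1 - η) ^ k * (1 + η) ^ k ≤ 1 := by
      rw [← mul_pow]
      apply pow_le_one₀
      · nlinarith
      · nlinarith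
    have h5 : 0 ≤ (1 - η) ^ k := pow_nonneg (by linarith) k
    nlinarith [mul_le_mul_of_nonneg_left h3 h5]
  rw [le_div_iff₀ h0]
  have h5 : 0 ≤ (1 - η) ^ k := pow_nonneg (by linarith) k
  nlinarith

/-- energy of `del e (T f)` -/
lemma energy_bound {η : ℝ} (h0 : 0 < η) (h1 : η < 1) (e : E) (f : (E → Bool) → ℝ) :
    ∑ S : Finset E, (S.card : ℝ) * b.hat (b.del e (b.T univ (Real.sqrt (1 - η)) f)) S ^ 2 ≤
      b.ex (fun x => b.del e f x ^ 2) / η := by
  set ρ := Real.sqrt (1 - η) with hρ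
  have hρ2 : ρ ^ 2 = 1 - η := Real.sq_sqrt (by linarith)
  rw [parseval_sq, div_eq_mul_inv, Finset.sum_mul]
  refine Finset.sum_le_sum (fun S _ => ?_)
  rw [hat_del_T, mul_pow, ← pow_mul]
  have h2 : ρ ^ ((S.card + 1) * 2) = (1 - η) ^ S.card * (1 - η) := by
    rw [mul_comm, pow_mul, hρ2, pow_succ]
  rw [h2]
  set H := b.hat (b.del e f) S
  have h3 := mul_one_sub_pow_le h0 h1 S.card
  have h4 : (S.card : ℝ) * ((1 - η) ^ S.card * (1 - η)) ≤ η⁻¹ := by
    have h5 : 0 ≤ (S.card : ℝ) * (1 - η) ^ S.card := by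
      have : 0 ≤ 1 - η := by linarith
      positivity
    rw [← one_div]
    nlinarith
  calc (S.card : ℝ) * ((1 - η) ^ S.card * (1 - η) * H ^ 2)
      = ((S.card : ℝ) * ((1 - η) ^ S.card * (1 - η))) * H ^ 2 := by ring
    _ ≤ η⁻¹ * H ^ 2 := mul_le_mul_of_nonneg_right h4 (sq_nonneg _)
    _ = H ^ 2 * η⁻¹ := mul_comm _ _

end Bias
end Crest.Agent.BC
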