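import Crest.Agent.BiasedCube.Incidence

/-!
# Choice of parameters: from the abstract variance inequality to `(log n)^(r/(r-1))`
-/

set_option autoImplicit false
set_option linter.unusedSectionVars false
set_option linter.unusedVariables false
set_option linter.unusedSimpArgs false
set_option linter.deprecated false

open Finset

namespace Crest.Agent.BC

namespace Bias

variable (b : Bias) {E : Type*} [Fintype E] [DecidableEq E]

/-- Poincaré inequality -/
lemma poincare (f : (E → Bool) → ℝ) :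
    b.ex (fun x => f x ^ 2) - b.ex f ^ 2 ≤ ∑ e, b.ex (fun x => b.del e f x ^ 2) := by
  rw [b.variance_eq f, ← b.sum_card_hat f]
  calc ∑ T ∈ univ.filter (fun T : Finset E => T ≠ ∅), b.hat f T ^ 2
      ≤ ∑ T ∈ univ.filter (fun T : Finset E => T ≠ ∅), (T.card : ℝ) * b.hat f T ^ 2 := by
        refine Finset.sum_le_sum (fun T hT => ?_)
        have hT' := (Finset.mem_filter.mp hT).2
        have h1 : 1 ≤ T.card := Finset.card_pos.mpr (Finset.nonempty_iff_ne_empty.mpr hT')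
        have h2 : (1 : ℝ) ≤ T.card := by exact_mod_cast h1
        nlinarith [sq_nonneg (b.hat f T)]
    _ ≤ _ := Finset.sum_le_sum_of_subset_of_nonneg (Finset.filter_subset _ _)
        (fun T _ _ => by positivity)

lemma sum_del_sq_nonneg (f : (E → Bool) → ℝ) : 0 ≤ ∑ e, b.ex (fun x => b.del e f x ^ 2) :=
  Finset.sum_nonneg (fun e _ => b.ex_nonneg (fun _ => sq_nonneg _))

lemma two_div_s_ge : 4 ≤ 2 / b.s := by
  rw [le_div_iff₀ b.s_pos]
  linarith [b.s_le]

lemma log_two_div_s_ge : 1 ≤ Real.log (2 / b.s) := by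
  have h1 : Real.log 4 ≤ Real.log (2 / b.s) :=
    Real.log_le_log (by norm_num) b.two_div_s_ge
  have h2 : Real.log 4 = 2 * Real.log 2 := by
    rw [show (4 : ℝ) = 2 ^ 2 by norm_num, Real.log_pow]
    norm_num
  have h3 := Real.log_two_gt_d9
  linarith

lemma s_mul_log_le : b.s * Real.log (2 / b.s) ≤ 2 := by
  have hs := b.s_pos
  have h1 : Real.log (2 / b.s) ≤ 2 / b.s - 1 := Real.log_le_sub_one_of_pos (by positivity)
  have h2 : b.s * Real.log (2 / b.s) ≤ b.s * (2 / b.s - 1) := mul_le_mul_of_nonneg_left h1 hs.le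
  have h3 : b.s * (2 / b.s - 1) = 2 - b.s := by
    field_simp
  linarith

end Bias

section

variable {V E : Type*} [Fintype V] [DecidableEq V] [Fintype E] [DecidableEq E] {r : ℕ}

/-- The abstract bound with a good choice of the free parameters. -/
theorem var_param (I : Inc V E r) (hr : 2 ≤ r) (b : Bias) (f : (E → Bool) → ℝ)
    (hf : ∀ x, f x = 0 ∨ f x = 1) (hsym : ∀ σ x, f (x ∘ I.act σ) = f x)
    {d : ℕ} {ℓ : ℝ} (hℓ0 : 0 < ℓ) (hℓ : ℓ ^ (r - 1) = (d : ℝ) ^ r) (hd : r < d)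
    (hN : (16 : ℝ) ^ 4 * (d : ℝ) ^ 18 * (2 / b.s) ^ (8 * d) ≤ ((Fintype.card V - r : ℕ) : ℝ)) :
    b.ex (fun x => f x ^ 2) - b.ex f ^ 2 ≤
      (∑ e, b.ex (fun x => b.del e f x ^ 2)) * (11 * r / ℓ) := by
  have hs := b.s_pos
  have hsle := b.s_le
  have hd1 : 1 ≤ d := by omega
  have hdR : (1 : ℝ) ≤ d := by exact_mod_cast hd1
  have hr0 : r - 1 ≠ 0 := by omega
  have hrR : (2 : ℝ) ≤ r := by exact_mod_cast hr
  have hℓd : (d : ℝ) ≤ ℓ := by
    have h1 : (d : ℝ) ^ (r - 1) ≤ ℓ ^ (r - 1) := by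
      rw [hℓ]
      exact pow_le_pow_right₀ hdR (by omega)
    exact (pow_le_pow_iff_left₀ (by linarith) hℓ0.le hr0).1 h1
  have hℓd2 : ℓ ≤ (d : ℝ) ^ 2 := by
    have h1 : ℓ ^ (r - 1) ≤ ((d : ℝ) ^ 2) ^ (r - 1) := by
      rw [hℓ, ← pow_mul]
      exact pow_le_pow_right₀ hdR (by omega)
    exact (pow_le_pow_iff_left₀ hℓ0.le (by positivity) hr0).1 h1
  have hℓ1 : 1 ≤ ℓ := hdR.trans hℓd
  have hrd : (r : ℝ) < d := by exact_mod_cast hd
  set N : ℝ := ((Fintype.card V - r : ℕ) : ℝ) with hNdef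
  set W := (2 / b.s) ^ (8 * d) with hW
  have h2s : 1 ≤ 2 / b.s := by linarith [b.two_div_s_ge]
  have hW1 : 1 ≤ W := one_le_pow₀ h2s
  set η := (r : ℝ) / ℓ with hη
  set lam := 1 / ℓ with hlam
  set k := 2 * (d - 1) with hk
  set θ := b.s * (b.s / 2) ^ k / (16 * ℓ ^ 2) with hθ
  have hη0 : 0 < η := by positivity
  have hη1 : η < 1 := by
    rw [hη, div_lt_one hℓ0]
    linarith
  have hlam0 : 0 < lam := by positivity
  have hθ0 : 0 < θ := by positivity
  have hpow1 : (b.s / 2) ^ k ≤ 1 := pow_le_one₀ (by positivity) (by linarith)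
  have hθ1 : θ ≤ 1 := by
    rw [hθ, div_le_one (by positivity)]
    have h1 : b.s * (b.s / 2) ^ k ≤ 1 * 1 :=
      mul_le_mul (by linarith) hpow1 (by positivity) (by norm_num)
    have h2 : 1 ≤ ℓ ^ 2 := one_le_pow₀ hℓ1
    nlinarith
  have hinv : (2 / b.s) ^ k * (b.s / 2) ^ k = 1 := by
    rw [← mul_pow]
    have : 2 / b.s * (b.s / 2) = 1 := by field_simp
    rw [this, one_pow]
  -- `ℓ ≤ θ^4 N`
  have hθN : ℓ ≤ θ ^ 4 * N := by
    have h4k : (2 * k + 2 * k + 8 : ℕ) = 8 * d := by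
      rw [hk]
      omega
    have hWeq : W = (2 / b.s) ^ k * (2 / b.s) ^ k * (2 / b.s) ^ k * (2 / b.s) ^ k * (2 / b.s) ^ 8 := by
      rw [hW, ← h4k]
      ring
    have hθ4 : θ ^ 4 = b.s ^ 4 * ((b.s / 2) ^ k) ^ 4 / (16 ^ 4 * ℓ ^ 8) := by
      rw [hθ]
      field_simp
    have hid : θ ^ 4 * ((16 : ℝ) ^ 4 * ℓ ^ 9 * W) = ℓ * (b.s ^ 4 * (2 / b.s) ^ 8) := by
      rw [hθ4, hWeq]
      have h1 : ((b.s / 2) ^ k) ^ 4 * ((2 / b.s) ^ k * (2 / b.s) ^ k * (2 / b.s) ^ k * (2 / b.s) ^ k) = 1 := by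
        calc _ = ((2 / b.s) ^ k * (b.s / 2) ^ k) ^ 4 := by ring
          _ = 1 := by rw [hinv, one_pow]
      have h2 : b.s ^ 4 * ((b.s / 2) ^ k) ^ 4 / (16 ^ 4 * ℓ ^ 8) *
          (16 ^ 4 * ℓ ^ 9 * ((2 / b.s) ^ k * (2 / b.s) ^ k * (2 / b.s) ^ k * (2 / b.s) ^ k * (2 / b.s) ^ 8)) =
          (((b.s / 2) ^ k) ^ 4 * ((2 / b.s) ^ k * (2 / b.s) ^ k * (2 / b.s) ^ k * (2 / b.s) ^ k)) *
            (ℓ * (b.s ^ 4 * (2 / b.s) ^ 8)) := by
        field_simp
      rw [h2, h1, one_mul]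
    have hs4 : 1 ≤ b.s ^ 4 * (2 / b.s) ^ 8 := by
      have h1 : b.s ^ 4 * (2 / b.s) ^ 8 = 256 / b.s ^ 4 := by
        field_simp
        norm_num
      rw [h1, le_div_iff₀ (by positivity), one_mul]
      have h2 : b.s ^ 4 ≤ 1 := pow_le_one₀ hs.le (by linarith)
      linarith
    have hℓ9 : ℓ ^ 9 ≤ (d : ℝ) ^ 18 := by
      calc ℓ ^ 9 ≤ ((d : ℝ) ^ 2) ^ 9 := pow_le_pow_left₀ hℓ0.le hℓd2 9
        _ = (d : ℝ) ^ 18 := by rw [← pow_mul]
    have hle : (16 : ℝ) ^ 4 * ℓ ^ 9 * W ≤ N := by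
      refine le_trans ?_ hN
      refine mul_le_mul_of_nonneg_right ?_ (by positivity)
      exact mul_le_mul_of_nonneg_left hℓ9 (by positivity)
    calc ℓ ≤ ℓ * (b.s ^ 4 * (2 / b.s) ^ 8) := le_mul_of_one_le_right hℓ0.le hs4
      _ = θ ^ 4 * ((16 : ℝ) ^ 4 * ℓ ^ 9 * W) := hid.symm
      _ ≤ θ ^ 4 * N := mul_le_mul_of_nonneg_left hle (by positivity)
  have hN1 : (r : ℝ) ≤ θ ^ 4 * η * N := by
    have h1 : θ ^ 4 * η * N = (θ ^ 4 * N) * ((r : ℝ) / ℓ) := by
      rw [hη]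
      ring
    rw [h1]
    have h2 : ℓ * ((r : ℝ) / ℓ) = r := by field_simp
    have h3 : ℓ * ((r : ℝ) / ℓ) ≤ (θ ^ 4 * N) * ((r : ℝ) / ℓ) :=
      mul_le_mul_of_nonneg_right hθN (by positivity)
    linarith
  -- the hypotheses on `t`
  have hrtℓ : ∀ t : ℕ, ℓ ≤ (r : ℝ) * t → 1 ≤ η * t := by
    intro t ht
    rw [hη, div_mul_eq_mul_div, le_div_iff₀ hℓ0, one_mul]
    exact ht
  have h1 : ∀ t : ℕ, d ^ r ≤ (r * t) ^ (r - 1) → 1 ≤ η * t := by
    intro t ht
    apply hrtℓ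
    have h2 : (d : ℝ) ^ r ≤ ((r : ℝ) * t) ^ (r - 1) := by exact_mod_cast ht
    rw [← hℓ] at h2
    exact (pow_le_pow_iff_left₀ hℓ0.le (by positivity) hr0).1 h2
  have hNℓ : 2 * ℓ ≤ N := by
    have h2 : (2 : ℝ) * (d : ℝ) ^ 2 ≤ (16 : ℝ) ^ 4 * (d : ℝ) ^ 18 * W := by
      have h3 : (d : ℝ) ^ 2 ≤ (d : ℝ) ^ 18 := pow_le_pow_right₀ hdR (by norm_num)
      have h4 : (0 : ℝ) ≤ (d : ℝ) ^ 18 := by positivity
      have h5 : (16 : ℝ) ^ 4 * (d : ℝ) ^ 18 ≤ (16 : ℝ) ^ 4 * (d : ℝ) ^ 18 * W :=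
        le_mul_of_one_le_right (by positivity) hW1
      nlinarith
    linarith
  have h2 : ∀ t : ℕ, (Fintype.card V - r) * d < 2 * (r * t) → 1 ≤ η * t := by
    intro t ht
    apply hrtℓ
    have h3 : N * d < 2 * ((r : ℝ) * t) := by
      rw [hNdef]
      exact_mod_cast ht
    have h4 : N * 1 ≤ N * d := mul_le_mul_of_nonneg_left hdR (by linarith)
    linarith
  have hmain := var_bound I hr b f hf hsym hd1 hη0 hη1 hθ0 hθ1 hlam0 hN1 h1 h2
  refine hmain.trans (le_of_eq ?_)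
  congr 1
  have h3 : 4 / (lam * b.s) * (2 / b.s) ^ k * θ = 1 / (4 * ℓ) := by
    have h4 : 4 / (lam * b.s) * (2 / b.s) ^ k * θ =
        ((2 / b.s) ^ k * (b.s / 2) ^ k) * (1 / (4 * ℓ)) := by
      rw [hθ, hlam]
      field_simp
      norm_num
    rw [h4, hinv, one_mul]
  rw [h3, hη, hlam]
  field_simp
  ring

lemma key_exp {L : ℝ} (hL : 724 ≤ L) : 2 * 16 ^ 4 * (L / 16) ^ 18 ≤ Real.exp (L / 2) := by
  have hL0 : 0 < L := by linarith
  have h1 : L / 724 ≤ Real.exp (L / 724 - 1) := by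
    have := Real.add_one_le_exp (L / 724 - 1)
    linarith
  have h2 : L / 16 ≤ 46 * Real.exp (L / 724 - 1) := by
    have h3 : L / 16 = (724 / 16) * (L / 724) := by ring
    rw [h3]
    have h4 : 0 ≤ L / 724 := by positivity
    have h5 : (724 / 16 : ℝ) ≤ 46 := by norm_num
    exact mul_le_mul h5 h1 h4 (by norm_num)
  have h3 : (L / 16) ^ 18 ≤ 46 ^ 18 * Real.exp (18 * (L / 724 - 1)) := by
    calc (L / 16) ^ 18 ≤ (46 * Real.exp (L / 724 - 1)) ^ 18 :=
          pow_le_pow_left₀ (by positivity) h2 18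
      _ = 46 ^ 18 * Real.exp (18 * (L / 724 - 1)) := by
          rw [mul_pow, ← Real.exp_nat_mul]
          norm_num
  have h4 : (2 * 16 ^ 4 * 46 ^ 18 : ℝ) ≤ Real.exp 125 := by
    have h5 : (2 : ℝ) ≤ Real.exp 1 := by
      have := Real.add_one_le_exp (1 : ℝ)
      linarith
    have h6 : (2 : ℝ) ^ 125 ≤ Real.exp 125 := by
      calc (2 : ℝ) ^ 125 ≤ (Real.exp 1) ^ 125 := pow_le_pow_left₀ (by norm_num) h5 125
        _ = Real.exp 125 := by
            rw [← Real.exp_nat_mul]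
            norm_num
    have h7 : (2 * 16 ^ 4 * 46 ^ 18 : ℝ) ≤ 2 ^ 125 := by norm_num
    linarith
  calc 2 * 16 ^ 4 * (L / 16) ^ 18 ≤ 2 * 16 ^ 4 * (46 ^ 18 * Real.exp (18 * (L / 724 - 1))) :=
        mul_le_mul_of_nonneg_left h3 (by positivity)
    _ = (2 * 16 ^ 4 * 46 ^ 18) * Real.exp (18 * (L / 724 - 1)) := by ring
    _ ≤ Real.exp 125 * Real.exp (18 * (L / 724 - 1)) :=
        mul_le_mul_of_nonneg_right h4 (Real.exp_pos _).le
    _ = Real.exp (125 + 18 * (L / 724 - 1)) := (Real.exp_add _ _).symm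
    _ ≤ Real.exp (L / 2) := by
        apply Real.exp_le_exp.mpr
        linarith

/-- The constant in the main inequality. -/
def cstR (r : ℕ) : ℝ := 45056 * r + 1024 * (r + 1) ^ 2

/-- The main inequality in the form with the logarithm; requires `n` large. -/
theorem var_log (I : Inc V E r) (hr : 2 ≤ r) (b : Bias) (f : (E → Bool) → ℝ)
    (hf : ∀ x, f x = 0 ∨ f x = 1) (hsym : ∀ σ x, f (x ∘ I.act σ) = f x)
    (hn : 2 * r ≤ Fintype.card V) (hL : 724 ≤ Real.log (Fintype.card V)) :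
    b.ex (fun x => f x ^ 2) - b.ex f ^ 2 ≤
      cstR r / Real.log (Fintype.card V) ^ ((r : ℝ) / ((r : ℝ) - 1)) *
        ((∑ e, b.ex (fun x => b.del e f x ^ 2)) / b.s ^ 2) := by
  have hs := b.s_pos
  have hrR : (2 : ℝ) ≤ r := by exact_mod_cast hr
  set L := Real.log (Fintype.card V) with hLdef
  have hL0 : 0 < L := by linarith
  set β : ℝ := (r : ℝ) / ((r : ℝ) - 1) with hβ
  have hr1 : 0 < (r : ℝ) - 1 := by linarith
  have hβ0 : 0 < β := by positivity
  have hβ2 : β ≤ 2 := by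
    rw [hβ, div_le_iff₀ hr1]
    linarith
  set S := ∑ e, b.ex (fun x => b.del e f x ^ 2) with hS
  have hS0 : 0 ≤ S := b.sum_del_sq_nonneg f
  set ls := Real.log (2 / b.s) with hls
  have hls1 : 1 ≤ ls := b.log_two_div_s_ge
  have hsls : b.s * ls ≤ 2 := b.s_mul_log_le
  have hsls2 : b.s ^ 2 * ls ^ 2 ≤ 4 := by
    have h1 : 0 ≤ b.s * ls := by positivity
    nlinarith
  have hLβ : L ^ β ≤ L ^ 2 := by
    have h1 : L ^ β ≤ L ^ (2 : ℝ) := Real.rpow_le_rpow_of_exponent_le (by linarith) hβ2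
    simpa using h1
  have hLβ0 : 0 < L ^ β := Real.rpow_pos_of_pos hL0 _
  have hC : 0 ≤ cstR r := by
    unfold cstR
    positivity
  have hSs : S = (S / b.s ^ 2) * b.s ^ 2 := by
    field_simp
  have hSs0 : 0 ≤ S / b.s ^ 2 := by positivity
  -- reduce to a bound for `s^2 * factor`
  suffices hsuff : S * (1 : ℝ) = S → _ by exact hsuff (mul_one S)
  intro _
  rw [mul_comm (cstR r / L ^ β)]
  by_cases hcase : L < 16 * (r + 1) * ls
  · -- small bias or small `n`: Poincaré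
    refine (b.poincare f).trans ?_
    rw [← hS]
    conv_lhs => rw [hSs]
    refine mul_le_mul_of_nonneg_left ?_ hSs0
    rw [le_div_iff₀ hLβ0]
    have h1 : L ^ 2 ≤ (16 * (r + 1) * ls) ^ 2 := pow_le_pow_left₀ hL0.le hcase.le 2
    calc b.s ^ 2 * L ^ β ≤ b.s ^ 2 * L ^ 2 := mul_le_mul_of_nonneg_left hLβ (by positivity)
      _ ≤ b.s ^ 2 * (16 * (r + 1) * ls) ^ 2 := mul_le_mul_of_nonneg_left h1 (by positivity)
      _ = 256 * (r + 1) ^ 2 * (b.s ^ 2 * ls ^ 2) := by ring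
      _ ≤ 256 * (r + 1) ^ 2 * 4 := mul_le_mul_of_nonneg_left hsls2 (by positivity)
      _ ≤ cstR r := by
          unfold cstR
          have : (0 : ℝ) ≤ r := by positivity
          nlinarith
  · -- main case
    push Not at hcase
    set x := L / (16 * ls) with hx
    have hls0 : 0 < ls := by linarith
    have hx1 : (r : ℝ) + 1 ≤ x := by
      rw [hx, le_div_iff₀ (by positivity)]
      linarith
    set d := ⌊x⌋₊ with hd
    have hx0 : 0 ≤ x := by
      have : (0 : ℝ) ≤ r := by positivity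
      linarith
    have hdle : (d : ℝ) ≤ x := Nat.floor_le hx0
    have hdr : r < d := by
      have : r + 1 ≤ d := Nat.le_floor (by exact_mod_cast hx1)
      omega
    have hdge : x / 2 ≤ d := by
      have h1 : x < d + 1 := Nat.lt_floor_add_one x
      have h2 : (1 : ℝ) ≤ d := by
        have : 1 ≤ d := by omega
        exact_mod_cast this
      linarith
    have hd1 : (1 : ℝ) ≤ d := by
      have : 1 ≤ d := by omega
      exact_mod_cast this
    have hdpos : (0 : ℝ) < d := by linarith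
    set ℓ : ℝ := (d : ℝ) ^ β with hℓdef
    have hℓ0 : 0 < ℓ := Real.rpow_pos_of_pos hdpos _
    have hℓ : ℓ ^ (r - 1) = (d : ℝ) ^ r := by
      rw [hℓdef, ← Real.rpow_natCast, ← Real.rpow_mul hdpos.le, ← Real.rpow_natCast]
      congr 1
      have h3 : ((r - 1 : ℕ) : ℝ) = (r : ℝ) - 1 := by
        rw [Nat.cast_sub (by omega)]
        simp
      rw [h3, hβ]
      field_simp
    -- size condition
    have hN : (16 : ℝ) ^ 4 * (d : ℝ) ^ 18 * (2 / b.s) ^ (8 * d) ≤
        ((Fintype.card V - r : ℕ) : ℝ) := by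
      have hnpos : (0 : ℝ) < Fintype.card V := by
        have : 0 < Fintype.card V := by omega
        exact_mod_cast this
      have hexpL : Real.exp L = Fintype.card V := Real.exp_log hnpos
      have hNge : (Fintype.card V : ℝ) / 2 ≤ ((Fintype.card V - r : ℕ) : ℝ) := by
        rw [Nat.cast_sub (by omega)]
        have : (2 * r : ℝ) ≤ Fintype.card V := by exact_mod_cast hn
        linarith
      have h2s : (2 / b.s) = Real.exp ls := (Real.exp_log (by positivity)).symm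
      have h1 : (2 / b.s) ^ (8 * d) ≤ Real.exp (L / 2) := by
        rw [h2s, ← Real.exp_nat_mul]
        apply Real.exp_le_exp.mpr
        push_cast
        have h3 : (d : ℝ) * ls ≤ x * ls := mul_le_mul_of_nonneg_right hdle hls0.le
        have h4 : x * ls = L / 16 := by
          rw [hx]
          field_simp
        nlinarith
      have h2 : (d : ℝ) ≤ L / 16 := by
        have h3 : x ≤ L / 16 := by
          rw [hx]
          apply div_le_div_of_nonneg_left hL0.le (by norm_num)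
          nlinarith
        linarith
      have h3 : (d : ℝ) ^ 18 ≤ (L / 16) ^ 18 := pow_le_pow_left₀ hdpos.le h2 18
      have hkey := key_exp hL
      have h4 : Real.exp L = Real.exp (L / 2) * Real.exp (L / 2) := by
        rw [← Real.exp_add]
        congr 1
        ring
      have hexp0 := Real.exp_pos (L / 2)
      calc (16 : ℝ) ^ 4 * (d : ℝ) ^ 18 * (2 / b.s) ^ (8 * d)
          ≤ (16 : ℝ) ^ 4 * (L / 16) ^ 18 * Real.exp (L / 2) := by
            refine mul_le_mul (mul_le_mul_of_nonneg_left h3 (by positivity)) h1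
              (by positivity) (by positivity)
        _ ≤ (Real.exp (L / 2) / 2) * Real.exp (L / 2) := by
            refine mul_le_mul_of_nonneg_right ?_ hexp0.le
            linarith
        _ = Real.exp L / 2 := by rw [h4]; ring
        _ = (Fintype.card V : ℝ) / 2 := by rw [hexpL]
        _ ≤ _ := hNge
    have hmain := var_param I hr b f hf hsym hℓ0 hℓ hdr hN
    refine hmain.trans ?_
    rw [← hS]
    conv_lhs => rw [hSs]
    rw [mul_assoc]
    refine mul_le_mul_of_nonneg_left ?_ hSs0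
    -- now arithmetic
    have hxx : (L / (32 * ls)) ≤ d := by
      have : L / (32 * ls) = x / 2 := by
        rw [hx]
        field_simp
        norm_num
      rw [this]
      exact hdge
    have hb1 : (L / (32 * ls)) ^ β ≤ ℓ :=
      Real.rpow_le_rpow (by positivity) hxx hβ0.le
    have hb2 : (L / (32 * ls)) ^ β = L ^ β / (32 * ls) ^ β :=
      Real.div_rpow hL0.le (by positivity) _
    have hb3 : (32 * ls) ^ β ≤ (32 * ls) ^ 2 := by
      have h1 : (32 * ls) ^ β ≤ (32 * ls) ^ (2 : ℝ) :=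
        Real.rpow_le_rpow_of_exponent_le (by linarith) hβ2
      simpa using h1
    have hb4 : 0 < (32 * ls) ^ β := Real.rpow_pos_of_pos (by positivity) _
    have hb5 : 1 / ℓ ≤ (32 * ls) ^ 2 / L ^ β := by
      rw [div_le_div_iff₀ hℓ0 hLβ0, one_mul]
      rw [hb2, div_le_iff₀ hb4] at hb1
      have h6 : ℓ * (32 * ls) ^ β ≤ ℓ * (32 * ls) ^ 2 :=
        mul_le_mul_of_nonneg_left hb3 hℓ0.le
      linarith
    have hrr : (0 : ℝ) ≤ r := by positivity
    calc b.s ^ 2 * (11 * r / ℓ) = 11 * r * b.s ^ 2 * (1 / ℓ) := by ring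
      _ ≤ 11 * r * b.s ^ 2 * ((32 * ls) ^ 2 / L ^ β) :=
          mul_le_mul_of_nonneg_left hb5 (by positivity)
      _ = (11 * r * 1024 * (b.s ^ 2 * ls ^ 2)) / L ^ β := by ring
      _ ≤ (11 * r * 1024 * 4) / L ^ β := by
          apply div_le_div_of_nonneg_right _ hLβ0.le
          exact mul_le_mul_of_nonneg_left hsls2 (by positivity)
      _ ≤ cstR r / L ^ β := by
          apply div_le_div_of_nonneg_right _ hLβ0.le
          unfold cstR
          have : (0 : ℝ) ≤ ((r : ℝ) + 1) ^ 2 := by positivity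
          linarith

end

end Crest.Agent.BC
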