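import Crest.Agent.BiasedCube.Bridge

/-!
# Russo's formula and the logistic differential inequality
-/

set_option autoImplicit false
set_option linter.unusedSectionVars false
set_option linter.unusedVariables false
set_option linter.unusedSimpArgs false
set_option linter.deprecated false

open Finset

namespace Crest.Agent.BC

/-- the polynomial in the bias -/
noncomputable def uPoly {E : Type*} [Fintype E] [DecidableEq E] (f : (E → Bool) → ℝ) (t : ℝ) : ℝ :=
  ∑ x, Crest.FinProb.bernoulliWeight t x * f x

lemma bernoulliProb_eq_uPoly {E : Type*} [Fintype E] [DecidableEq E] (S : Set (E → Bool))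
    (φ : (E → Bool) → ℝ) (h1 : ∀ x, x ∈ S → φ x = 1) (h0 : ∀ x, x ∉ S → φ x = 0) (t : ℝ) :
    Crest.FinProb.bernoulliProb t S = uPoly φ t := by
  unfold Crest.FinProb.bernoulliProb uPoly
  classical
  rw [Finset.sum_filter]
  refine Finset.sum_congr rfl (fun x _ => ?_)
  by_cases h : x ∈ S
  · simp [h, h1 x h]
  · simp [h, h0 x h]

namespace Bias

variable (b : Bias) {E : Type*} [Fintype E] [DecidableEq E]

lemma hasDerivAt_weight (x : E → Bool) :
    HasDerivAt (fun t : ℝ => Crest.FinProb.bernoulliWeight t x)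
      (b.wt x * ∑ e, b.chi (x e) / b.s) b.p := by
  have hs := b.s_pos.ne'
  have hsq := b.s_sq
  have hone : ∀ e ∈ (univ : Finset E), HasDerivAt (fun t : ℝ => if x e then t else 1 - t)
      (if x e then 1 else -1) b.p := by
    intro e _
    by_cases h : x e = true
    · simp only [h, if_true]
      exact hasDerivAt_id' b.p
    · simp only [h, if_false]
      exact (hasDerivAt_id' b.p).const_sub 1
  have := HasDerivAt.fun_finsetProd hone
  unfold Crest.FinProb.bernoulliWeight
  refine this.congr_deriv ?_
  symm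
  rw [Finset.mul_sum]
  refine Finset.sum_congr rfl (fun e he => ?_)
  have h1 : b.wt x = b.m (x e) * ∏ j ∈ univ.erase e, (if x j then b.p else 1 - b.p) := by
    unfold wt m
    exact (Finset.mul_prod_erase univ (fun j => if x j then b.p else 1 - b.p) he).symm
  rw [h1, smul_eq_mul]
  have h2 : b.m (x e) * (b.chi (x e) / b.s) = if x e then 1 else -1 := by
    rcases hx : x e with _ | _
    · simp only [m_false, chi_false]
      field_simp
      simp only [Bool.false_eq_true, if_false]
      rw [hsq]
      ring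
    · simp only [m_true, chi_true]
      field_simp
      simp only [if_true]
      rw [hsq]
      ring
  rw [← h2]
  ring

lemma sum_chi_mul (f : (E → Bool) → ℝ) (e : E) :
    ∑ x, b.wt x * (b.chi (x e) / b.s) * f x = b.ex (b.del e f) / b.s := by
  have h1 : b.ex (b.del e f) = b.hat f {e} := by
    rw [ex_eq_hat_empty, hat_del]
    simp
  rw [h1]
  unfold hat ex cha
  rw [Finset.sum_div]
  refine Finset.sum_congr rfl (fun x _ => ?_)
  simp only [Finset.prod_singleton]
  ring

/-- Russo's formula -/
theorem hasDerivAt_uPoly (f : (E → Bool) → ℝ) :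
    HasDerivAt (uPoly f) (∑ e, b.ex (b.del e f) / b.s) b.p := by
  have h1 : ∀ x ∈ (univ : Finset (E → Bool)),
      HasDerivAt (fun t : ℝ => Crest.FinProb.bernoulliWeight t x * f x)
        ((b.wt x * ∑ e, b.chi (x e) / b.s) * f x) b.p :=
    fun x _ => (b.hasDerivAt_weight x).mul_const (f x)
  have h2 := HasDerivAt.fun_sum h1
  have h3 : uPoly f = fun t => ∑ x, Crest.FinProb.bernoulliWeight t x * f x := by
    funext t
    rfl
  rw [h3]
  refine h2.congr_deriv ?_
  simp_rw [Finset.mul_sum, Finset.sum_mul]
  rw [Finset.sum_comm]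
  refine Finset.sum_congr rfl (fun e _ => ?_)
  exact b.sum_chi_mul f e

/-- For a monotone Boolean function the derivative is the total influence. -/
lemma sum_del_div_eq (f : (E → Bool) → ℝ) (hf : ∀ x, f x = 0 ∨ f x = 1)
    (hmono : ∀ x e, f (Function.update x e false) ≤ f (Function.update x e true)) :
    ∑ e, b.ex (b.del e f) / b.s = (∑ e, b.ex (fun x => b.del e f x ^ 2)) / b.s ^ 2 := by
  have hs := b.s_pos
  rw [Finset.sum_div]
  refine Finset.sum_congr rfl (fun e _ => ?_)
  have h1 : b.ex (fun x => b.del e f x ^ 2) = b.s * b.ex (b.del e f) := by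
    rw [← ex_mul_const]
    refine b.ex_congr (fun x => ?_)
    rw [b.del_sq_boolean e hf x, abs_of_nonneg]
    unfold del
    exact mul_nonneg hs.le (sub_nonneg.mpr (hmono x e))
  rw [h1]
  field_simp

end Bias

/-- The logistic differential inequality. -/
theorem logit_ode {u u' : ℝ → ℝ} {p q c ε : ℝ} (hpq : p < q)
    (hd : ∀ t ∈ Set.Icc p q, HasDerivAt u (u' t) t)
    (hnn : ∀ t ∈ Set.Icc p q, 0 ≤ u' t)
    (hvar : ∀ t ∈ Set.Icc p q, c * (u t * (1 - u t)) ≤ u' t)
    (hε0 : 0 < ε) (hε : ε < 1 / 2) (hup : ε ≤ u p) (huq : u q < 1 - ε) :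
    c * (q - p) < 2 * (Real.log (1 - ε) - Real.log ε) := by
  have hcont : ContinuousOn u (Set.Icc p q) :=
    fun t ht => (hd t ht).continuousAt.continuousWithinAt
  have hint : interior (Set.Icc p q) = Set.Ioo p q := interior_Icc
  have hsub : Set.Ioo p q ⊆ Set.Icc p q := Set.Ioo_subset_Icc_self
  have hmono : MonotoneOn u (Set.Icc p q) := by
    apply monotoneOn_of_deriv_nonneg (convex_Icc p q) hcont
    · rw [hint]
      exact fun t ht => (hd t (hsub ht)).differentiableAt.differentiableWithinAt
    · rw [hint]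
      intro t ht
      rw [(hd t (hsub ht)).deriv]
      exact hnn t (hsub ht)
  have hpmem : p ∈ Set.Icc p q := ⟨le_rfl, hpq.le⟩
  have hqmem : q ∈ Set.Icc p q := ⟨hpq.le, le_rfl⟩
  have hbd : ∀ t ∈ Set.Icc p q, ε ≤ u t ∧ u t < 1 - ε := by
    intro t ht
    exact ⟨hup.trans (hmono hpmem ht ht.1), lt_of_le_of_lt (hmono ht hqmem ht.2) huq⟩
  set v : ℝ → ℝ := fun t => Real.log (u t) - Real.log (1 - u t) with hv
  have hvd : ∀ t ∈ Set.Icc p q, HasDerivAt v (u' t / u t - (- u' t) / (1 - u t)) t := by
    intro t ht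
    have h1 := hbd t ht
    have hu0 : u t ≠ 0 := by linarith [h1.1]
    have hu1 : 1 - u t ≠ 0 := by linarith [h1.2]
    exact (hd t ht).log hu0 |>.sub (((hd t ht).const_sub 1).log hu1)
  have hvcont : ContinuousOn v (Set.Icc p q) :=
    fun t ht => (hvd t ht).continuousAt.continuousWithinAt
  have hkey : c * (q - p) ≤ v q - v p := by
    apply Convex.mul_sub_le_image_sub_of_le_deriv (convex_Icc p q) hvcont
    · rw [hint]
      exact fun t ht => (hvd t (hsub ht)).differentiableAt.differentiableWithinAt
    · rw [hint]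
      intro t ht
      rw [(hvd t (hsub ht)).deriv]
      have h1 := hbd t (hsub ht)
      have hu0 : 0 < u t := by linarith [h1.1]
      have hu1 : 0 < 1 - u t := by linarith [h1.2]
      have h2 := hvar t (hsub ht)
      have h3 : u' t / u t - (- u' t) / (1 - u t) = u' t / (u t * (1 - u t)) := by
        field_simp
        ring
      rw [h3, le_div_iff₀ (by positivity)]
      exact h2
    · exact hpmem
    · exact hqmem
    · exact hpq.le
  have hqb := hbd q hqmem
  have hpb := hbd p hpmem
  have hε1 : 0 < 1 - ε := by linarith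
  have h1 : Real.log (u q) < Real.log (1 - ε) :=
    Real.log_lt_log (by linarith [hqb.1]) hqb.2
  have h2 : Real.log ε ≤ Real.log (1 - u q) :=
    Real.log_le_log hε0 (by linarith [hqb.2])
  have h3 : Real.log ε ≤ Real.log (u p) := Real.log_le_log hε0 hup
  have h4 : Real.log (1 - u p) ≤ Real.log (1 - ε) :=
    Real.log_le_log (by linarith [hpb.2]) (by linarith [hup])
  have h5 : v q - v p = Real.log (u q) - Real.log (1 - u q) -
      (Real.log (u p) - Real.log (1 - u p)) := rfl
  rw [h5] at hkey
  linarith

end Crest.Agent.BC
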