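import Crest.Agent.BiasedCube.Basic

/-!
# Swapping two groups of coordinates: the decoupling inequality
-/

set_option autoImplicit false
set_option linter.unusedSectionVars false
set_option linter.unusedVariables false
set_option linter.unusedSimpArgs false
set_option linter.deprecated false

open Finset

namespace Crest.Agent.BC
namespace Bias

variable (b : Bias) {E : Type*} [Fintype E] [DecidableEq E]

/-- precomposition with a permutation of the coordinates, as a bijection of the cube -/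
def cubeEquiv (s : E ≃ E) : (E → Bool) ≃ (E → Bool) where
  toFun x := x ∘ s
  invFun x := x ∘ s.symm
  left_inv x := by funext e; simp
  right_inv x := by funext e; simp

lemma wt_comp (s : E ≃ E) (x : E → Bool) : b.wt (x ∘ s) = b.wt x :=
  Equiv.prod_comp s (fun e => b.m (x e))

lemma ex_comp (s : E ≃ E) (g : (E → Bool) → ℝ) : b.ex (fun x => g (x ∘ s)) = b.ex g := by
  unfold ex
  rw [← Equiv.sum_comp (cubeEquiv s) (fun x => b.wt x * g x)]
  refine Finset.sum_congr rfl (fun x _ => ?_)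
  simp [cubeEquiv, wt_comp]

lemma T_comp (s : E ≃ E) (Y : Finset E) (ρ : ℝ) (g : (E → Bool) → ℝ) (x : E → Bool) :
    b.T Y ρ g (x ∘ s) = b.T (Y.map s.toEmbedding) ρ (fun z => g (z ∘ s)) x := by
  unfold T
  rw [← Equiv.sum_comp (cubeEquiv s)]
  refine Finset.sum_congr rfl (fun w _ => ?_)
  have h1 : b.wt ((cubeEquiv s) w) = b.wt w := b.wt_comp s w
  have h2 : b.ker Y ρ (x ∘ s) ((cubeEquiv s) w) = b.ker (Y.map s.toEmbedding) ρ x w := by
    unfold ker
    rw [Finset.prod_map]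
    rfl
  have h3 : Y.piecewise ((cubeEquiv s) w) (x ∘ s) =
      ((Y.map s.toEmbedding).piecewise w x) ∘ s := by
    funext e
    simp only [Finset.piecewise, Function.comp, cubeEquiv, Equiv.coe_fn_mk, Finset.mem_map,
      Equiv.coe_toEmbedding]
    by_cases he : e ∈ Y
    · have : ∃ a ∈ Y, s a = s e := ⟨e, he, rfl⟩
      simp [he]
    · have : ¬ ∃ a ∈ Y, s a = s e := by
        rintro ⟨a, ha, hae⟩
        exact he (s.injective hae ▸ ha)
      simp [he, this]
  rw [h1, h2, h3]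

lemma Ex_comp (s : E ≃ E) (Y : Finset E) (g : (E → Bool) → ℝ) (x : E → Bool) :
    b.Ex Y g (x ∘ s) = b.Ex (Y.map s.toEmbedding) (fun z => g (z ∘ s)) x := by
  rw [← T_zero, ← T_zero, T_comp]

/-- The swap decoupling inequality. -/
theorem swap_decouple (s : E ≃ E) (y y' : Finset E)
    (hmap : y'.map s.toEmbedding = y) (hmap' : y.map s.toEmbedding = y')
    (hfix : ∀ e, e ∉ y ∪ y' → s e = e) (G : (E → Bool) → ℝ) {c ω : ℝ}
    (hc : ∀ x, |G x| ≤ c) (hω : 0 < ω) :
    b.ex (fun x => (b.Ex (y ∪ y') (fun z => G z ^ 2) x) ^ 2) ≤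
      b.ex (fun x => G x ^ 2 * G (x ∘ s) ^ 2) + ω * (c ^ 2 * b.ex (fun x => G x ^ 2)) +
        (1 / ω + 1) * (4 * c ^ 2 *
          ∑ S ∈ univ.filter (fun S : Finset E => ¬ Disjoint S y'), b.hat G S ^ 2) := by
  set Ψ : (E → Bool) → ℝ := fun z => G z ^ 2 with hΨ
  set Ψ' : (E → Bool) → ℝ := fun z => Ψ (z ∘ s) with hΨ'
  set φ := b.Ex y' Ψ with hφ
  set φ' : (E → Bool) → ℝ := fun z => φ (z ∘ s) with hφ'
  set M := b.Ex (y ∪ y') Ψ with hM
  set Δ : (E → Bool) → ℝ := fun z => Ψ z - φ z with hΔ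
  set Δ' : (E → Bool) → ℝ := fun z => Δ (z ∘ s) with hΔ'
  have hc0 : 0 ≤ c := (abs_nonneg _).trans (hc (fun _ => true))
  -- step 1
  have h1 : φ' = b.Ex y Ψ' := by
    funext x
    simp only [hφ', hφ]
    rw [Ex_comp, hmap]
  have h2 : M = b.Ex y φ := by
    rw [hφ, Ex_Ex]
  have hYmap : (y ∪ y').map s.toEmbedding = y ∪ y' := by
    rw [Finset.map_union, hmap, hmap', Finset.union_comm]
  have hMs : ∀ z, M (z ∘ s) = M z := by
    intro z
    have h4 : z ∘ s = (y ∪ y').piecewise (z ∘ s) z := by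
      funext e
      by_cases he : e ∈ y ∪ y'
      · simp [Finset.piecewise, he]
      · have h5 := hfix e he
        simp [Finset.piecewise, he, h5]
    rw [h4]
    exact b.fix_Ex (y ∪ y') Ψ z (z ∘ s)
  have h3 : ∀ z, b.Ex y' φ' z = M z := by
    intro z
    rw [h1, Ex_Ex, Finset.union_comm, ← hYmap, ← hMs z]
    simp only [hM]
    rw [Ex_comp, hYmap]
  -- step 2: E[φ φ'] = E[M^2]
  have h4 : b.ex (fun z => φ z * φ' z) = b.ex (fun z => M z ^ 2) := by
    calc b.ex (fun z => φ z * φ' z) = b.ex (b.Ex y' (fun z => φ z * φ' z)) := (b.ex_Ex _ _).symm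
      _ = b.ex (fun z => φ z * M z) := by
          refine b.ex_congr (fun z => ?_)
          rw [b.Ex_mul_left _ (b.fix_Ex y' Ψ), h3]
      _ = b.ex (fun z => M z * φ z) := b.ex_congr (fun z => by ring)
      _ = b.ex (b.Ex y (fun z => M z * φ z)) := (b.ex_Ex _ _).symm
      _ = b.ex (fun z => M z ^ 2) := by
          refine b.ex_congr (fun z => ?_)
          have hfixM : Fix y M := by
            rw [h2]
            exact b.fix_Ex y φ
          rw [b.Ex_mul_left _ hfixM, ← h2]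
          ring
  -- step 3: pointwise
  have hpt : ∀ z, φ z * φ' z ≤ Ψ z * Ψ' z + (ω / 2) * (φ z ^ 2 + φ' z ^ 2) +
      (1 / ω + 1) / 2 * (Δ z ^ 2 + Δ' z ^ 2) := by
    intro z
    have hD : Δ z = Ψ z - φ z := rfl
    have hD' : Δ' z = Ψ' z - φ' z := rfl
    have hΨz : Ψ z = φ z + Δ z := by rw [hD]; ring
    have hΨz' : Ψ' z = φ' z + Δ' z := by rw [hD']; ring
    rw [hΨz, hΨz']
    set A := φ z
    set A' := φ' z
    set B := Δ z
    set B' := Δ' z
    have h1 : 0 ≤ (ω * A + B') ^ 2 / ω / 2 := by positivity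
    have h2 : 0 ≤ (ω * A' + B) ^ 2 / ω / 2 := by positivity
    have h3 : 0 ≤ (B + B') ^ 2 / 2 := by positivity
    have e1 : (ω * A + B') ^ 2 / ω / 2 = ω / 2 * A ^ 2 + A * B' + B' ^ 2 / ω / 2 := by
      field_simp
      ring
    have e2 : (ω * A' + B) ^ 2 / ω / 2 = ω / 2 * A' ^ 2 + A' * B + B ^ 2 / ω / 2 := by
      field_simp
      ring
    have e3 : (1 / ω + 1) / 2 * (B ^ 2 + B' ^ 2) = B ^ 2 / ω / 2 + B' ^ 2 / ω / 2 + (B ^ 2 + B' ^ 2) / 2 := by
      field_simp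
    rw [e1] at h1
    rw [e2] at h2
    rw [e3]
    nlinarith
  have hφφ : b.ex (fun z => φ' z ^ 2) = b.ex (fun z => φ z ^ 2) :=
    b.ex_comp s (fun z => φ z ^ 2)
  have hΔΔ : b.ex (fun z => Δ' z ^ 2) = b.ex (fun z => Δ z ^ 2) :=
    b.ex_comp s (fun z => Δ z ^ 2)
  have h5 : b.ex (fun z => M z ^ 2) ≤ b.ex (fun z => Ψ z * Ψ' z) + ω * b.ex (fun z => φ z ^ 2) +
      (1 / ω + 1) * b.ex (fun z => Δ z ^ 2) := by
    rw [← h4]
    refine (b.ex_mono hpt).trans (le_of_eq ?_)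
    rw [ex_add, ex_add, ex_mul_const, ex_mul_const, ex_add, ex_add, hφφ, hΔΔ]
    ring
  -- step 4: E[φ^2] ≤ c^2 E[Ψ]
  have hG2 : ∀ z, G z ^ 2 ≤ c ^ 2 := by
    intro z
    rw [← sq_abs]
    exact pow_le_pow_left₀ (abs_nonneg _) (hc z) 2
  have h6 : b.ex (fun z => φ z ^ 2) ≤ c ^ 2 * b.ex Ψ := by
    have h7 : ∀ z, φ z ^ 2 ≤ b.Ex y' (fun z => Ψ z ^ 2) z := by
      intro z
      have := b.Ex_cs y' (fun _ => 1) Ψ z
      simp only [one_mul, one_pow, Ex_const] at this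
      exact this
    calc b.ex (fun z => φ z ^ 2) ≤ b.ex (b.Ex y' (fun z => Ψ z ^ 2)) := b.ex_mono h7
      _ = b.ex (fun z => Ψ z ^ 2) := b.ex_Ex _ _
      _ ≤ b.ex (fun z => c ^ 2 * Ψ z) := by
          refine b.ex_mono (fun z => ?_)
          simp only [hΨ]
          nlinarith [hG2 z, sq_nonneg (G z)]
      _ = c ^ 2 * b.ex Ψ := b.ex_mul_const _ _
  -- step 5: E[Δ^2]
  set g' := b.Ex y' G with hg'
  have hg'c : ∀ z, |g' z| ≤ c := by
    intro z
    rw [abs_le]
    constructor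
    · have := b.Ex_mono y' (g := fun _ => -c) (h := G) (fun x => (abs_le.mp (hc x)).1) z
      rwa [Ex_const] at this
    · have := b.Ex_mono y' (g := G) (h := fun _ => c) (fun x => (abs_le.mp (hc x)).2) z
      rwa [Ex_const] at this
  have h7 : b.ex (fun z => Δ z ^ 2) ≤ b.ex (fun z => (Ψ z - g' z ^ 2) ^ 2) := by
    have hfixD : Fix y' (fun z => φ z - g' z ^ 2) := by
      intro x w
      have e1 : φ (y'.piecewise w x) = φ x := b.fix_Ex y' Ψ x w
      have e2 : g' (y'.piecewise w x) = g' x := b.fix_Ex y' G x w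
      simp only []
      rw [e1, e2]
    have horth : b.ex (fun z => (φ z - g' z ^ 2) * Δ z) = 0 := by
      rw [← b.ex_Ex y']
      have : ∀ z, b.Ex y' (fun z => (φ z - g' z ^ 2) * Δ z) z = 0 := by
        intro z
        rw [b.Ex_mul_left _ hfixD]
        simp only [hΔ]
        rw [Ex_sub, ← hφ, hφ, Ex_idem]
        ring
      rw [b.ex_congr this, ex_const]
    have hexp : ∀ z, (Ψ z - g' z ^ 2) ^ 2 =
        Δ z ^ 2 + (2 * ((φ z - g' z ^ 2) * Δ z) + (φ z - g' z ^ 2) ^ 2) := by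
      intro z
      simp only [hΔ]
      ring
    rw [b.ex_congr hexp, ex_add, ex_add, ex_mul_const, horth]
    have := b.ex_nonneg (g := fun z => (φ z - g' z ^ 2) ^ 2) (fun _ => sq_nonneg _)
    linarith
  have h8 : b.ex (fun z => (Ψ z - g' z ^ 2) ^ 2) ≤ 4 * c ^ 2 * b.ex (fun z => (G z - g' z) ^ 2) := by
    rw [← b.ex_mul_const]
    refine b.ex_mono (fun z => ?_)
    have h9 : (Ψ z - g' z ^ 2) ^ 2 = (G z + g' z) ^ 2 * (G z - g' z) ^ 2 := by
      simp only [hΨ]
      ring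
    rw [h9]
    refine mul_le_mul_of_nonneg_right ?_ (sq_nonneg _)
    have h10 : |G z + g' z| ≤ 2 * c := (abs_add_le _ _).trans (by linarith [hc z, hg'c z])
    have h11 : (G z + g' z) ^ 2 ≤ (2 * c) ^ 2 := by
      rw [← sq_abs]
      exact pow_le_pow_left₀ (abs_nonneg _) h10 2
    nlinarith
  have h9 : b.ex (fun z => (G z - g' z) ^ 2) =
      ∑ S ∈ univ.filter (fun S : Finset E => ¬ Disjoint S y'), b.hat G S ^ 2 := by
    rw [b.parseval_sq (fun z => G z - g' z), Finset.sum_filter]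
    refine Finset.sum_congr rfl (fun S _ => ?_)
    rw [hat_sub, hg', hat_Ex]
    by_cases hS : Disjoint S y' <;> simp [hS]
  rw [h9] at h8
  have hω' : 0 ≤ 1 / ω + 1 := by positivity
  have hfinal : ω * b.ex (fun z => φ z ^ 2) ≤ ω * (c ^ 2 * b.ex (fun x => G x ^ 2)) :=
    mul_le_mul_of_nonneg_left h6 hω.le
  have hfinal2 : (1 / ω + 1) * b.ex (fun z => Δ z ^ 2) ≤ (1 / ω + 1) * (4 * c ^ 2 *
          ∑ S ∈ univ.filter (fun S : Finset E => ¬ Disjoint S y'), b.hat G S ^ 2) :=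
    mul_le_mul_of_nonneg_left (h7.trans h8) hω'
  have hh : b.ex (fun z => Ψ z * Ψ' z) = b.ex (fun x => G x ^ 2 * G (x ∘ s) ^ 2) := rfl
  linarith

end Bias
end Crest.Agent.BC
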