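import Crest.Agent.BiasedCube.Hyper
import Crest.Agent.BiasedCube.Swap
import Crest.Agent.BiasedCube.Noise

/-!
# The star bound: averaging the swap inequality over the vertices `a'`
-/

set_option autoImplicit false
set_option linter.unusedSectionVars false
set_option linter.unusedVariables false
set_option linter.unusedSimpArgs false
set_option linter.deprecated false

open Finset

namespace Crest.Agent.BC
namespace Bias

variable (b : Bias) {E : Type*} [Fintype E] [DecidableEq E]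

lemma del_comp (s : E ≃ E) {u : (E → Bool) → ℝ} (hu : ∀ x, u (x ∘ s) = u x) (e₀ : E)
    (x : E → Bool) : b.del e₀ u (x ∘ s) = b.del (s e₀) u x := by
  unfold del
  have h : ∀ c, Function.update (x ∘ s) e₀ c = (Function.update x (s e₀) c) ∘ s := by
    intro c
    funext e
    by_cases he : e = e₀
    · subst he
      simp
    · have h2 : s e ≠ s e₀ := fun h => he (s.injective h)
      simp [Function.update_of_ne he, Function.update_of_ne h2]
  rw [h, h, hu, hu]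

lemma T_univ_comp (s : E ≃ E) (ρ : ℝ) {f : (E → Bool) → ℝ} (hf : ∀ x, f (x ∘ s) = f x)
    (x : E → Bool) : b.T univ ρ f (x ∘ s) = b.T univ ρ f x := by
  rw [T_comp, Finset.map_univ_equiv]
  congr 1
  funext z
  exact hf z

variable {A : Type*} [Fintype A] [DecidableEq A]

/-- the main estimate for a fixed coordinate `e₀`: sum over the index set `A` of swaps. -/
theorem star_sum (f : (E → Bool) → ℝ) (hf : ∀ x, f x = 0 ∨ f x = 1)
    (e₀ : E) (sw : A → E ≃ E) (y y' : A → Finset E)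
    (hmap : ∀ a, (y' a).map (sw a).toEmbedding = y a)
    (hmap' : ∀ a, (y a).map (sw a).toEmbedding = y' a)
    (hfix : ∀ a e, e ∉ y a ∪ y' a → sw a e = e)
    (hsym : ∀ a x, f (x ∘ sw a) = f x)
    (hinj : Function.Injective (fun a => sw a e₀))
    (r : ℕ) (hr : 2 ≤ r) (hcov : ∀ e, (univ.filter (fun a => e ∈ y' a)).card ≤ r)
    {η θ lam : ℝ} (hη0 : 0 < η) (hη1 : η < 1) (hθ0 : 0 < θ) (hθ1 : θ ≤ 1) (hlam : 0 < lam)
    (hN : (r : ℝ) ≤ θ ^ 4 * η * Fintype.card A) (D : ℕ) :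
    ∑ a, ∑ S ∈ univ.filter (fun S : Finset E => (S ∩ (y a ∪ y' a)).card ≤ D),
        b.hat (b.del e₀ (b.T univ (Real.sqrt (1 - η)) f)) S ^ 2 ≤
      Fintype.card A * b.ex (fun x => b.del e₀ f x ^ 2) *
        (2 * lam + 4 / (lam * b.s) * (2 / b.s) ^ D * θ) := by
  have hs := b.s_pos
  have hs2 := b.s_sq_le
  set ρ := Real.sqrt (1 - η) with hρ
  have hρ0 : 0 ≤ ρ := Real.sqrt_nonneg _
  have hρ2 : ρ ^ 2 = 1 - η := Real.sq_sqrt (by linarith)
  have hρ1 : ρ < 1 := by nlinarith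
  set u := b.T univ ρ f with hu
  set G := b.del e₀ u with hG
  set D₀ := b.del e₀ f with hD₀
  set A₀ := b.ex (fun x => D₀ x ^ 2) with hA₀
  set A₁ := b.ex (fun x => G x ^ 2) with hA₁
  set N : ℝ := ((Fintype.card A : ℕ) : ℝ) with hNdef
  have hN0 : 0 ≤ N := Nat.cast_nonneg _
  have hf01 : ∀ x, 0 ≤ f x ∧ f x ≤ 1 := by
    intro x
    rcases hf x with h | h <;> rw [h] <;> norm_num
  have hfsq : ∀ x, f x ^ 2 ≤ 1 := by
    intro x
    rcases hf x with h | h <;> rw [h] <;> norm_num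
  have hA₀0 : 0 ≤ A₀ := b.ex_nonneg (fun _ => sq_nonneg _)
  have hA₁0 : 0 ≤ A₁ := b.ex_nonneg (fun _ => sq_nonneg _)
  have hA₁A₀ : A₁ ≤ A₀ := b.ex_del_T_sq_le hρ0 hρ1.le e₀ f
  have hGs : ∀ x, |G x| ≤ b.s := b.abs_del_le e₀ (fun x => b.T_unit hρ0 hρ1.le f hf01 univ x)
  have hGabs : b.s * b.ex (fun x => |G x|) ≤ A₀ := by
    have h1 : b.ex (fun x => |G x|) ≤ b.ex (fun x => |D₀ x|) := b.ex_abs_del_T hρ0 hρ1.le e₀ f
    have h2 : A₀ = b.s * b.ex (fun x => |D₀ x|) := by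
      rw [hA₀, ← ex_mul_const]
      exact b.ex_congr (fun x => b.del_sq_boolean e₀ hf x)
    rw [h2]
    exact mul_le_mul_of_nonneg_left h1 hs.le
  -- the constant V
  have hV : 1 / (1 - ρ) ≤ 2 / η := by
    have h1 : 0 < 1 - ρ := by linarith
    rw [div_le_div_iff₀ h1 hη0]
    nlinarith
  have hV0 : 0 < 1 / (1 - ρ) := by
    have h1 : 0 < 1 - ρ := by linarith
    positivity
  -- symmetry of G
  have hGcomp : ∀ a x, G (x ∘ sw a) = b.del (sw a e₀) u x := by
    intro a x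
    exact b.del_comp (sw a) (fun x => b.T_univ_comp (sw a) ρ (hsym a) x) e₀ x
  have hgrad : ∀ x, ∑ a, G (x ∘ sw a) ^ 2 ≤ 1 / (1 - ρ) := by
    intro x
    simp_rw [hGcomp]
    calc ∑ a, b.del (sw a e₀) u x ^ 2
        = ∑ e ∈ univ.image (fun a => sw a e₀), b.del e u x ^ 2 := by
          rw [Finset.sum_image (fun _ _ _ _ h => hinj h)]
      _ ≤ ∑ e, b.del e u x ^ 2 :=
          Finset.sum_le_sum_of_subset_of_nonneg (Finset.subset_univ _) (fun _ _ _ => sq_nonneg _)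
      _ ≤ 1 / (1 - ρ) := b.grad_bound hρ0 hρ1 f hfsq x
  set B : A → ℝ := fun a => b.ex (fun x => G x ^ 2 * G (x ∘ sw a) ^ 2) with hB
  have hBsum : ∑ a, B a ≤ 1 / (1 - ρ) * A₁ := by
    simp only [hB]
    rw [← b.ex_sum]
    have : ∀ x, ∑ a, G x ^ 2 * G (x ∘ sw a) ^ 2 ≤ 1 / (1 - ρ) * G x ^ 2 := by
      intro x
      rw [← Finset.mul_sum, mul_comm]
      exact mul_le_mul_of_nonneg_right (hgrad x) (sq_nonneg _)
    refine (b.ex_mono this).trans (le_of_eq ?_)
    rw [ex_mul_const]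
  set L : A → ℝ := fun a => ∑ S ∈ univ.filter (fun S : Finset E => ¬ Disjoint S (y' a)),
    b.hat G S ^ 2 with hL
  set Q : A → ℝ := fun a => b.ex (fun x => (b.Ex (y a ∪ y' a) (fun z => G z ^ 2) x) ^ 2) with hQ
  have hθ2 : 0 < θ ^ 2 := by positivity
  have hQa : ∀ a, Q a ≤ B a + θ ^ 2 * (b.s ^ 2 * A₁) + (1 / θ ^ 2 + 1) * (4 * b.s ^ 2 * L a) := by
    intro a
    exact b.swap_decouple (sw a) (y a) (y' a) (hmap a) (hmap' a) (hfix a) G hGs hθ2
  -- the energy sum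
  have hLsum : ∑ a, L a ≤ r * (A₀ / η) := by
    have h1 : ∑ a, L a = ∑ S : Finset E, b.hat G S ^ 2 *
        ((univ.filter (fun a => ¬ Disjoint S (y' a))).card : ℝ) := by
      simp only [hL]
      simp_rw [Finset.sum_filter]
      rw [Finset.sum_comm]
      refine Finset.sum_congr rfl (fun S _ => ?_)
      rw [← Finset.sum_filter, Finset.sum_const, nsmul_eq_mul, mul_comm]
    have h2 : ∀ S : Finset E, ((univ.filter (fun a => ¬ Disjoint S (y' a))).card : ℝ) ≤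
        (S.card : ℝ) * r := by
      intro S
      have h3 : univ.filter (fun a => ¬ Disjoint S (y' a)) ⊆
          S.biUnion (fun e => univ.filter (fun a => e ∈ y' a)) := by
        intro a ha
        have ha' := (Finset.mem_filter.mp ha).2
        rw [Finset.not_disjoint_iff] at ha'
        obtain ⟨e, he1, he2⟩ := ha'
        exact Finset.mem_biUnion.mpr ⟨e, he1, Finset.mem_filter.mpr ⟨Finset.mem_univ _, he2⟩⟩
      have h4 := (Finset.card_le_card h3).trans
        (Finset.card_biUnion_le_card_mul S _ r (fun e _ => hcov e))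
      exact_mod_cast h4
    rw [h1]
    calc ∑ S : Finset E, b.hat G S ^ 2 * ((univ.filter (fun a => ¬ Disjoint S (y' a))).card : ℝ)
        ≤ ∑ S : Finset E, b.hat G S ^ 2 * ((S.card : ℝ) * r) :=
          Finset.sum_le_sum (fun S _ => mul_le_mul_of_nonneg_left (h2 S) (sq_nonneg _))
      _ = r * ∑ S : Finset E, (S.card : ℝ) * b.hat G S ^ 2 := by
          rw [Finset.mul_sum]
          exact Finset.sum_congr rfl (fun S _ => by ring)
      _ ≤ r * (A₀ / η) := by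
          refine mul_le_mul_of_nonneg_left ?_ (Nat.cast_nonneg _)
          exact b.energy_bound hη0 hη1 e₀ f
  -- bound on the sum of the Q
  have hQsum : ∑ a, Q a ≤ 4 * N * A₀ * θ ^ 2 := by
    have hsum : ∑ a, Q a ≤ ∑ a, B a + N * (θ ^ 2 * (b.s ^ 2 * A₁)) +
        (1 / θ ^ 2 + 1) * (4 * b.s ^ 2 * ∑ a, L a) := by
      calc ∑ a, Q a ≤ ∑ a, (B a + θ ^ 2 * (b.s ^ 2 * A₁) +
            (1 / θ ^ 2 + 1) * (4 * b.s ^ 2 * L a)) := Finset.sum_le_sum (fun a _ => hQa a)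
        _ = _ := by
          rw [Finset.sum_add_distrib, Finset.sum_add_distrib, Finset.sum_const, nsmul_eq_mul,
            ← Finset.mul_sum, ← Finset.mul_sum]
          rfl
    have hR : (r : ℝ) / η ≤ θ ^ 4 * N := by
      rw [div_le_iff₀ hη0]
      nlinarith
    have hr2 : (2 : ℝ) ≤ r := by exact_mod_cast hr
    have h2η : 2 / η ≤ (r : ℝ) / η := div_le_div_of_nonneg_right hr2 hη0.le
    have hθ4 : θ ^ 4 ≤ θ ^ 2 := pow_le_pow_of_le_one hθ0.le hθ1 (by norm_num)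
    have hNA : 0 ≤ N * A₀ := mul_nonneg hN0 hA₀0
    have t1 : ∑ a, B a ≤ θ ^ 2 * (N * A₀) := by
      calc ∑ a, B a ≤ 1 / (1 - ρ) * A₁ := hBsum
        _ ≤ 2 / η * A₀ := mul_le_mul hV hA₁A₀ hA₁0 (by positivity)
        _ ≤ (θ ^ 4 * N) * A₀ := mul_le_mul_of_nonneg_right (h2η.trans hR) hA₀0
        _ = θ ^ 4 * (N * A₀) := by ring
        _ ≤ θ ^ 2 * (N * A₀) := mul_le_mul_of_nonneg_right hθ4 hNA
    have t2 : N * (θ ^ 2 * (b.s ^ 2 * A₁)) ≤ θ ^ 2 * (N * A₀) := by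
      have h1 : b.s ^ 2 * A₁ ≤ 1 * A₀ := mul_le_mul (by linarith) hA₁A₀ hA₁0 (by norm_num)
      have h2 : θ ^ 2 * (b.s ^ 2 * A₁) ≤ θ ^ 2 * (1 * A₀) :=
        mul_le_mul_of_nonneg_left h1 hθ2.le
      have h3 := mul_le_mul_of_nonneg_left h2 hN0
      linarith [h3]
    have t3 : (1 / θ ^ 2 + 1) * (4 * b.s ^ 2 * ∑ a, L a) ≤ 2 * (θ ^ 2 * (N * A₀)) := by
      have hL0 : 0 ≤ ∑ a, L a :=
        Finset.sum_nonneg (fun a _ => Finset.sum_nonneg (fun _ _ => sq_nonneg _))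
      have h1 : 4 * b.s ^ 2 * ∑ a, L a ≤ 1 * (r * (A₀ / η)) :=
        mul_le_mul (by linarith) hLsum hL0 (by norm_num)
      have h2 : (r : ℝ) * (A₀ / η) ≤ θ ^ 4 * N * A₀ := by
        have : (r : ℝ) * (A₀ / η) = (r : ℝ) / η * A₀ := by ring
        rw [this]
        exact mul_le_mul_of_nonneg_right hR hA₀0
      have h3 : (1 / θ ^ 2 + 1) * (4 * b.s ^ 2 * ∑ a, L a) ≤
          (1 / θ ^ 2 + 1) * (θ ^ 4 * N * A₀) :=
        mul_le_mul_of_nonneg_left (by linarith) (by positivity)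
      have h4 : (1 / θ ^ 2 + 1) * (θ ^ 4 * N * A₀) = (θ ^ 2 + θ ^ 4) * (N * A₀) := by
        field_simp
      rw [h4] at h3
      have h5 : (θ ^ 2 + θ ^ 4) * (N * A₀) ≤ (θ ^ 2 + θ ^ 2) * (N * A₀) :=
        mul_le_mul_of_nonneg_right (by linarith) hNA
      linarith
    have t4 : 0 ≤ θ ^ 2 * (N * A₀) := by positivity
    linarith
  -- low degree bound for every a
  have hlam' : 0 < lam * b.s := mul_pos hlam hs
  have h2θ : 0 < 2 * θ := by positivity
  have hlow : ∀ a, ∑ S ∈ univ.filter (fun S : Finset E => (S ∩ (y a ∪ y' a)).card ≤ D),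
      b.hat G S ^ 2 ≤ (2 / b.s) ^ D * (2 * θ * A₁ + Q a / (2 * θ)) / (lam * b.s) +
        2 * (lam * b.s) * b.ex (fun x => |G x|) := by
    intro a
    exact b.low_degree_bound (y a ∪ y' a) G hlam' h2θ D
  have hP : 0 ≤ (2 / b.s) ^ D / (lam * b.s) := by positivity
  calc ∑ a, ∑ S ∈ univ.filter (fun S : Finset E => (S ∩ (y a ∪ y' a)).card ≤ D), b.hat G S ^ 2
      ≤ ∑ a, ((2 / b.s) ^ D * (2 * θ * A₁ + Q a / (2 * θ)) / (lam * b.s) +
        2 * (lam * b.s) * b.ex (fun x => |G x|)) := Finset.sum_le_sum (fun a _ => hlow a)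
    _ = (2 / b.s) ^ D / (lam * b.s) * (N * (2 * θ * A₁) + (∑ a, Q a) / (2 * θ)) +
        N * (2 * lam * (b.s * b.ex (fun x => |G x|))) := by
        have h1 : ∀ a, (2 / b.s) ^ D * (2 * θ * A₁ + Q a / (2 * θ)) / (lam * b.s) =
            (2 / b.s) ^ D / (lam * b.s) * (2 * θ * A₁ + Q a / (2 * θ)) := by
          intro a
          ring
        simp_rw [h1]
        rw [Finset.sum_add_distrib, ← Finset.mul_sum, Finset.sum_add_distrib,
          ← Finset.sum_div, Finset.sum_const, Finset.sum_const, nsmul_eq_mul, nsmul_eq_mul,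
          Finset.card_univ]
        ring
    _ ≤ (2 / b.s) ^ D / (lam * b.s) * (N * (2 * θ * A₀) + (4 * N * A₀ * θ ^ 2) / (2 * θ)) +
        N * (2 * lam * A₀) := by
        have h1 : N * (2 * θ * A₁) ≤ N * (2 * θ * A₀) :=
          mul_le_mul_of_nonneg_left (mul_le_mul_of_nonneg_left hA₁A₀ h2θ.le) hN0
        have h2 : (∑ a, Q a) / (2 * θ) ≤ (4 * N * A₀ * θ ^ 2) / (2 * θ) :=
          div_le_div_of_nonneg_right hQsum h2θ.le
        have h3 : N * (2 * lam * (b.s * b.ex (fun x => |G x|))) ≤ N * (2 * lam * A₀) :=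
          mul_le_mul_of_nonneg_left (mul_le_mul_of_nonneg_left hGabs (by positivity)) hN0
        have h4 := mul_le_mul_of_nonneg_left (add_le_add h1 h2) hP
        linarith
    _ = N * A₀ * (2 * lam + 4 / (lam * b.s) * (2 / b.s) ^ D * θ) := by
        field_simp
        ring

/-- the class version: if a family of sets `S` is such that at least half of the swaps see `S`
with small degree, then the total weight is small. -/
theorem star_class (f : (E → Bool) → ℝ) (hf : ∀ x, f x = 0 ∨ f x = 1)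
    (e₀ : E) (sw : A → E ≃ E) (y y' : A → Finset E)
    (hmap : ∀ a, (y' a).map (sw a).toEmbedding = y a)
    (hmap' : ∀ a, (y a).map (sw a).toEmbedding = y' a)
    (hfix : ∀ a e, e ∉ y a ∪ y' a → sw a e = e)
    (hsym : ∀ a x, f (x ∘ sw a) = f x)
    (hinj : Function.Injective (fun a => sw a e₀))
    (r : ℕ) (hr : 2 ≤ r) (hcov : ∀ e, (univ.filter (fun a => e ∈ y' a)).card ≤ r)
    {η θ lam : ℝ} (hη0 : 0 < η) (hη1 : η < 1) (hθ0 : 0 < θ) (hθ1 : θ ≤ 1) (hlam : 0 < lam)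
    (hN : (r : ℝ) ≤ θ ^ 4 * η * Fintype.card A) (D : ℕ)
    (𝓢 : Finset (Finset E))
    (h𝓢 : ∀ S ∈ 𝓢, (Fintype.card A : ℝ) ≤
      2 * ((univ.filter (fun a => (S ∩ (y a ∪ y' a)).card ≤ D)).card : ℝ)) :
    ∑ S ∈ 𝓢, b.hat (b.del e₀ (b.T univ (Real.sqrt (1 - η)) f)) S ^ 2 ≤
      2 * b.ex (fun x => b.del e₀ f x ^ 2) *
        (2 * lam + 4 / (lam * b.s) * (2 / b.s) ^ D * θ) := by
  set G := b.del e₀ (b.T univ (Real.sqrt (1 - η)) f) with hG
  set ε := 2 * lam + 4 / (lam * b.s) * (2 / b.s) ^ D * θ with hε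
  have hNpos : (0 : ℝ) < Fintype.card A := by
    by_contra hcon
    have h0 : (Fintype.card A : ℝ) = 0 := le_antisymm (not_lt.mp hcon) (Nat.cast_nonneg _)
    rw [h0, mul_zero] at hN
    have hr2 : (2 : ℝ) ≤ r := by exact_mod_cast hr
    linarith
  have hmain := b.star_sum f hf e₀ sw y y' hmap hmap' hfix hsym hinj r hr hcov hη0 hη1 hθ0 hθ1
    hlam hN D
  have h1 : (Fintype.card A : ℝ) * ∑ S ∈ 𝓢, b.hat G S ^ 2 ≤
      2 * ∑ a, ∑ S ∈ univ.filter (fun S : Finset E => (S ∩ (y a ∪ y' a)).card ≤ D),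
        b.hat G S ^ 2 := by
    have h2 : ∑ a, ∑ S ∈ univ.filter (fun S : Finset E => (S ∩ (y a ∪ y' a)).card ≤ D),
        b.hat G S ^ 2 ≥ ∑ S ∈ 𝓢, b.hat G S ^ 2 *
          ((univ.filter (fun a => (S ∩ (y a ∪ y' a)).card ≤ D)).card : ℝ) := by
      have h3 : ∀ a, ∑ S ∈ 𝓢.filter (fun S : Finset E => (S ∩ (y a ∪ y' a)).card ≤ D),
            b.hat G S ^ 2 ≤
          ∑ S ∈ univ.filter (fun S : Finset E => (S ∩ (y a ∪ y' a)).card ≤ D),
            b.hat G S ^ 2 := by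
        intro a
        refine Finset.sum_le_sum_of_subset_of_nonneg ?_ (fun _ _ _ => sq_nonneg _)
        exact Finset.filter_subset_filter _ (Finset.subset_univ _)
      refine le_trans (le_of_eq ?_) (Finset.sum_le_sum (fun a _ => h3 a))
      simp_rw [Finset.sum_filter]
      rw [Finset.sum_comm]
      refine Finset.sum_congr rfl (fun S _ => ?_)
      rw [← Finset.sum_filter, Finset.sum_const, nsmul_eq_mul, mul_comm]
    have h4 : (Fintype.card A : ℝ) * ∑ S ∈ 𝓢, b.hat G S ^ 2 ≤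
        2 * ∑ S ∈ 𝓢, b.hat G S ^ 2 *
          ((univ.filter (fun a => (S ∩ (y a ∪ y' a)).card ≤ D)).card : ℝ) := by
      rw [Finset.mul_sum, Finset.mul_sum]
      refine Finset.sum_le_sum (fun S hS => ?_)
      have := mul_le_mul_of_nonneg_left (h𝓢 S hS) (sq_nonneg (b.hat G S))
      linarith
    linarith
  have h5 : (Fintype.card A : ℝ) * ∑ S ∈ 𝓢, b.hat G S ^ 2 ≤
      (Fintype.card A : ℝ) * (2 * b.ex (fun x => b.del e₀ f x ^ 2) * ε) := by
    have : (Fintype.card A : ℝ) * (2 * b.ex (fun x => b.del e₀ f x ^ 2) * ε) =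
        2 * (Fintype.card A * b.ex (fun x => b.del e₀ f x ^ 2) * ε) := by ring
    rw [this]
    linarith
  exact le_of_mul_le_mul_left h5 hNpos

end Bias
end Crest.Agent.BC
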